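import Vale.Agent.Lib.P310F.R.CA2

set_option linter.unusedSectionVars false

namespace Vale.Agent.Lib.P310F.R

open Finset

section

variable {Sg : Type} [Fintype Sg] [DecidableEq Sg] {n Lt Lq pad bL bS g : ℕ}
variable {Δ : Sg → Sg → Sg → Sg} {xin : Fin n → Sg} {bl : Sg} {acc : Sg → Prop}
variable {C : ℕ → (Fin (Lq + 1) → Fin n) → Sg}

lemma card_SCo' {N pad : ℕ} : Fintype.card (SCo N pad) = 16 * (N + 1) + pad := card_SCo

/-- The seeds of the tableau system are true. -/
lemma trS_seed (hinit : True) (τ : Fin 3) (v : Fin (Lt + Lq + 1 + 1) → LamC Sg n) (hτ : τ ≠ 0)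
    (h : isOKC τ (v 0)) : TrS C v := by
  unfold isOKC at h
  rw [if_neg hτ] at h
  exact Or.inl h

/-- The trap is false. -/
lemma not_trS_trap (v : Fin (Lt + Lq + 1 + 1) → LamC Sg n) (h : isOKC 0 (v 0)) : ¬ TrS C v := by
  unfold isOKC at h
  rw [if_pos rfl] at h
  rintro (e | ⟨h', x, p, hs, ht⟩)
  · rw [h] at e
    simp at e
  · have : h' = Hd.trap := by
      have := hs.1
      rw [h] at this
      exact (Sum.inr.inj this).symm
    subst this
    exact ht

/-- If no cell is accepting, a triple with the trap in its first string has false other strings. -/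
lemma trap_false (hno : ¬ ∃ (x : Fin Lt → Fin n) (p : Fin (Lq + 1) → Fin n), acc (C (valD x) p))
    (a : Fin 3 → Fin (Lt + Lq + 1 + 1) → LamC Sg n) (t : Tag Sg Lt Lq)
    (hr : HasRun Δ xin bl acc a t) (h0 : a 0 0 = Sum.inr Hd.trap) :
    ¬ TrS C (a 1) ∧ ¬ TrS C (a 2) := by
  cases t with
  | kkk =>
    have := (hr 0 rfl).1
    rw [h0] at this
    simp at this
  | e0 =>
    have := ((hr 0).2 rfl).1
    rw [h0] at this
    simp at this
  | e1 =>
    have := ((hr 0).2 rfl).2
    exact absurd h0 this
  | e2 =>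
    have := ((hr 0).2 rfl).2
    exact absurd h0 this
  | and1 j =>
    have hh := hr 0
    simp only [BodyC, Fin.val_zero, if_true] at hh
    obtain ⟨_, _, e, -⟩ := hh
    rw [h0] at e
    simp at e
  | and2 j =>
    have hh := hr 0
    simp only [BodyC, Fin.val_zero, if_true] at hh
    obtain ⟨_, _, _, e, -⟩ := hh
    rw [h0] at e
    simp at e
  | one i j =>
    have hh := hr 0
    simp only [BodyC, Fin.val_zero, if_true] at hh
    obtain ⟨_, _, _, e, -⟩ := hh
    rw [h0] at e
    simp at e
  | iin b =>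
    have hh := hr 0
    simp only [BodyC, Fin.val_zero, if_true] at hh
    have e := hh.1
    rw [h0] at e
    simp at e
  | iout j =>
    have hh := hr 0
    simp only [BodyC, Fin.val_zero, if_true] at hh
    have e := hh.1
    rw [h0] at e
    simp at e
  | fin =>
    have he : a 1 = a 2 := funext fun l => (hr l).1
    obtain ⟨-, a1, e1, e2⟩ := (hr 0).2 rfl
    have bad : ¬ TrS C (a 1) := by
      rintro (h | ⟨h, x, p, hs, ht⟩)
      · rw [e1] at h
        simp at h
      · have : h = Hd.cell a1 := by
          have := hs.1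
          rw [e1] at this
          exact (Sum.inr.inj this).symm
        subst this
        apply hno
        refine ⟨x, p, ?_⟩
        have e : C (valD x) p = a1 := ht
        rw [e]
        exact e2
    refine ⟨bad, ?_⟩
    rw [← he]
    exact bad

variable (enc : LamC Sg n → Fin bL → Bool) (encS : Tag Sg Lt Lq → Fin bS → Bool)
variable [NumE (Gr × SCo (Lt + Lq + 1) pad)] [NumE (SCl (Lt + Lq + 1) bL bS)]
  [NumE (RV (SCo (Lt + Lq + 1) pad) (SCl (Lt + Lq + 1) bL bS) g ⊕
    SLet (LamC Sg n) (Tag Sg Lt Lq) (Lt + Lq + 1) pad)]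

/-- The main equivalence for a tableau: the graphs of the tableau string system are equivalent
exactly when no cell is accepting. -/
theorem ca_iff (henc : Function.Injective enc) (hencS : Function.Injective encS)
    (hg : Fintype.card (SCo (Lt + Lq + 1) pad) + 4 ≤ g)
    (hinit : ∀ p, C 0 p = initC xin bl p)
    (hrule : ∀ t, t + 1 < n ^ Lt → ∀ p, C (t + 1) (inc p) = Δ (C t p) (C t (inc p)) (C t (inc (inc p))))
    (a₀ : LamC Sg n) :
    WLEquiv (Fintype.card (SCo (Lt + Lq + 1) pad) + 2)
      (vtGraph (rb (I := SCo (Lt + Lq + 1) pad) (g := g)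
          (grS (N := Lt + Lq + 1) (bL := bL) (bS := bS)))
        (frL grS coS (covS (pad := pad) enc encS (LocC Δ xin bl acc) isOKC)) (fun _ => 0))
      (vtGraph (rb (I := SCo (Lt + Lq + 1) pad) (g := g)
          (grS (N := Lt + Lq + 1) (bL := bL) (bS := bS)))
        (frL grS coS (covS (pad := pad) enc encS (LocC Δ xin bl acc) isOKC)) twistR) ↔
    ¬ ∃ (x : Fin Lt → Fin n) (p : Fin (Lq + 1) → Fin n), acc (C (valD x) p) := by
  constructor
  · rintro hw ⟨x, p, ha⟩
    obtain ⟨y, hy, hd⟩ := dc_trap (Δ := Δ) (xin := xin) (bl := bl) hinit hrule ha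
    refine yes_S (a := ![trapS, y, y]) (u := fun _ => (Tag.fin : Tag Sg Lt Lq)) le_rfl ?_ ?_
      (run_of_hasRun hy) hd isOK_trap hw
    · omega
    · rw [card_SCo'] at hg
      have : 0 < g * Fintype.card (Gr × SCo (Lt + Lq + 1) pad) := by
        apply Nat.mul_pos (by omega)
        rw [Fintype.card_prod, card_SCo']
        apply Nat.mul_pos (by decide)
        omega
      omega
  · intro hno
    refine no_S henc hencS (M := fun _ v => TrS C v)
      (fun τ v hτ h => trS_seed trivial τ v hτ h) ?_ (fun v h => not_trS_trap v h) ?_ hg a₀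
    · intro a u hr τ hprev
      exact sem_rule hinit hrule hno a (u 0) (hasRun_of_run hr) τ hprev
    · intro a u hr h
      unfold isOKC at h
      rw [if_pos rfl] at h
      exact trap_false hno a (u 0) (hasRun_of_run hr) h

end

end Vale.Agent.Lib.P310F.R
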