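import Vale.Agent.Lib.P310F.R.CAEq

/-!
The string system of a cellular automaton tableau.

Strings have a head letter, `Lt` time digits and `Lq + 1` position digits in base `n`, least
significant digit first.  A string with head `cell a` says: at this time and position the tableau
holds `a`.  Heads `pair` and `trip` say the same for two or three consecutive positions.  Head `kap`
is always true and head `trap` is what has to be refuted.  The tags name the kinds of triples of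
strings, and for each kind two true entries give a true third entry.
-/

namespace Vale.Agent.Lib.P310F.R

theorem finite_Hd (Sg : Type) [Finite Sg] : Finite (Hd Sg) := Finite.of_equiv _ (Hd.equiv Sg).symm

theorem finite_Tag (Sg : Type) [Finite Sg] (Lt Lq : ℕ) : Finite (Tag Sg Lt Lq) :=
  Finite.of_equiv _ (Tag.equiv Sg Lt Lq).symm

noncomputable instance (Sg : Type) [Finite Sg] : Fintype (Hd Sg) :=
  @Fintype.ofFinite _ (finite_Hd Sg)

noncomputable instance (Sg : Type) [Finite Sg] (Lt Lq : ℕ) : Fintype (Tag Sg Lt Lq) :=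
  @Fintype.ofFinite _ (finite_Tag Sg Lt Lq)

noncomputable instance (Sg : Type) : DecidableEq (Hd Sg) := Classical.decEq _

noncomputable instance (Sg : Type) (Lt Lq : ℕ) : DecidableEq (Tag Sg Lt Lq) := Classical.decEq _

/-- The alphabet of strings: digits and head letters. -/
abbrev LamC (Sg : Type) (n : ℕ) : Type := Fin n ⊕ Hd Sg

/-- The increment relation at digit `j`, where the carry stops at digit `j0`. -/
def incAt {n : ℕ} (j0 j : ℕ) (d d' : Fin n) : Prop :=
  (j < j0 ∧ d.val + 1 = n ∧ d'.val = 0) ∨ (j = j0 ∧ d'.val = d.val + 1) ∨ (j0 < j ∧ d' = d)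

section

variable {Sg : Type} {n Lt Lq : ℕ}

/-- The digits of triples whose strings have the same time; the second string has the next
position. -/
def DigA (j : Fin (Lq + 2)) (l : ℕ) (x0 x1 x2 : LamC Sg n) : Prop :=
  if l ≤ Lt then ∃ d, x0 = Sum.inl d ∧ x1 = Sum.inl d ∧ x2 = Sum.inl d
  else ∃ d d', x0 = Sum.inl d ∧ x1 = Sum.inl d' ∧ x2 = Sum.inl d ∧ incAt j.val (l - 1 - Lt) d d'

variable (Δ : Sg → Sg → Sg → Sg) (xin : Fin n → Sg) (bl : Sg) (acc : Sg → Prop)

/-- What the tag requires at position `l` of a triple of strings. -/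
def BodyC : Tag Sg Lt Lq → ℕ → LamC Sg n → LamC Sg n → LamC Sg n → Prop
  | Tag.kkk, l, x0, x1, x2 =>
      l = 0 → x0 = Sum.inr Hd.kap ∧ x1 = Sum.inr Hd.kap ∧ x2 = Sum.inr Hd.kap
  | Tag.e0, l, x0, x1, x2 => x1 = x2 ∧ (l = 0 → x0 = Sum.inr Hd.kap ∧ x1 ≠ Sum.inr Hd.trap)
  | Tag.e1, l, x0, x1, x2 => x0 = x2 ∧ (l = 0 → x1 = Sum.inr Hd.kap ∧ x0 ≠ Sum.inr Hd.trap)
  | Tag.e2, l, x0, x1, x2 => x0 = x1 ∧ (l = 0 → x2 = Sum.inr Hd.kap ∧ x0 ≠ Sum.inr Hd.trap)
  | Tag.and1 j, l, x0, x1, x2 =>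
      if l = 0 then ∃ a b, x0 = Sum.inr (Hd.cell a) ∧ x1 = Sum.inr (Hd.cell b) ∧
        x2 = Sum.inr (Hd.pair a b)
      else DigA (Lt := Lt) j l x0 x1 x2
  | Tag.and2 j, l, x0, x1, x2 =>
      if l = 0 then ∃ a b c, x0 = Sum.inr (Hd.cell a) ∧ x1 = Sum.inr (Hd.pair b c) ∧
        x2 = Sum.inr (Hd.trip a b c)
      else DigA (Lt := Lt) j l x0 x1 x2
  | Tag.one i j, l, x0, x1, x2 =>
      if l = 0 then ∃ a b c, x0 = Sum.inr (Hd.trip a b c) ∧ x1 = Sum.inr (Hd.trip a b c) ∧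
        x2 = Sum.inr (Hd.cell (Δ a b c))
      else if l ≤ Lt then
        ∃ d d', x0 = Sum.inl d ∧ x1 = Sum.inl d ∧ x2 = Sum.inl d' ∧ incAt i.val (l - 1) d d'
      else
        ∃ d d', x0 = Sum.inl d ∧ x1 = Sum.inl d ∧ x2 = Sum.inl d' ∧ incAt j.val (l - 1 - Lt) d d'
  | Tag.iin a, l, x0, x1, x2 =>
      if l = 0 then x0 = Sum.inr Hd.kap ∧ x1 = Sum.inr Hd.kap ∧ x2 = Sum.inr (Hd.cell a)
      else if l = Lt + 1 then ∃ d, x2 = Sum.inl d ∧ xin d = a
      else ∃ d, x2 = Sum.inl d ∧ d.val = 0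
  | Tag.iout j, l, x0, x1, x2 =>
      if l = 0 then x0 = Sum.inr Hd.kap ∧ x1 = Sum.inr Hd.kap ∧ x2 = Sum.inr (Hd.cell bl) ∧ j.val ≠ 0
      else ∃ d, x2 = Sum.inl d ∧ (l ≤ Lt → d.val = 0) ∧ (l = Lt + 1 + j.val → d.val ≠ 0)
  | Tag.fin, l, x0, x1, x2 =>
      x1 = x2 ∧ (l = 0 → x0 = Sum.inr Hd.trap ∧ ∃ a, x1 = Sum.inr (Hd.cell a) ∧ acc a)

/-- The local relation of the string system of the tableau: the state is a constant tag. -/
def LocC (l : Fin (Lt + Lq + 1 + 1)) (x0 x1 x2 : LamC Sg n) (u u' : Tag Sg Lt Lq) : Prop :=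
  u' = u ∧ BodyC Δ xin bl acc u l.val x0 x1 x2

/-- The good heads: `trap` on track 0 and `kap` on the other tracks. -/
def isOKC (τ : Fin 3) (x : LamC Sg n) : Prop :=
  if τ = 0 then x = Sum.inr Hd.trap else x = Sum.inr Hd.kap

end

/-- Binary encoding of a finite type through an arbitrary numbering. -/
noncomputable def binEnc (α : Type) [Fintype α] (b : ℕ) (a : α) : Fin b → Bool :=
  fun i => (Fintype.equivFin α a).val.testBit i.val

end Vale.Agent.Lib.P310F.R
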