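import Vale.Agent.Lib.P310F.R.SDefs

/-!
The head letters and tags of the string system of a cellular automaton tableau.
-/

namespace Vale.Agent.Lib.P310F.R

/-- Head letters. -/
inductive Hd (Sg : Type) : Type
  | kap
  | trap
  | cell (a : Sg)
  | pair (a b : Sg)
  | trip (a b c : Sg)

/-- The kinds of triples of strings, the states of the automaton. -/
inductive Tag (Sg : Type) (Lt Lq : ℕ) : Type
  | kkk
  | e0
  | e1
  | e2
  | and1 (j : Fin (Lq + 2))
  | and2 (j : Fin (Lq + 2))
  | one (i : Fin Lt) (j : Fin (Lq + 2))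
  | iin (a : Sg)
  | iout (j : Fin (Lq + 1))
  | fin

end Vale.Agent.Lib.P310F.R
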