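import Vale.Agent.Lib.P310F.R.Dup

set_option linter.unusedSectionVars false

namespace Vale.Agent.Lib.P310F.R

open Finset

section Generic

variable {BV Pr : Type} [Fintype BV] [DecidableEq BV] [Fintype Pr] [DecidableEq Pr]
  [NumE (BV ⊕ Pr)]
variable (B : SimpleGraph BV) [DecidableRel B.Adj] (Fr : Pr → Finset (Sym2 BV))

/-- The base graph minus the blocked vertices and the frozen edges of a class set. -/
def freeG (X : Finset (BV ⊕ Pr)) : SimpleGraph BV where
  Adj a b := B.Adj a b ∧ Sum.inl a ∉ X ∧ Sum.inl b ∉ X ∧ ∀ p, Sum.inr p ∈ X → s(a, b) ∉ Fr p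
  symm := ⟨by
    rintro a b ⟨h1, h2, h3, h4⟩
    refine ⟨h1.symm, h3, h2, fun p hp => ?_⟩
    rw [Sym2.eq_swap]
    exact h4 p hp⟩
  loopless := ⟨fun a h => B.loopless.irrefl a h.1⟩

lemma freeG_mono {X X' : Finset (BV ⊕ Pr)} (h : X' ⊆ X) : freeG B Fr X ≤ freeG B Fr X' := by
  intro a b hab
  exact ⟨hab.1, fun h' => hab.2.1 (h h'), fun h' => hab.2.2.1 (h h'),
    fun p hp => hab.2.2.2 p (h hp)⟩

lemma bd_single {a b : BV} (hab : B.Adj a b) (v : BV) :
    bd B (fun e => if e = s(a, b) then 1 else 0) v =
      (if v = a then 1 else 0) + (if v = b then 1 else 0) := by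
  unfold bd
  have hne : a ≠ b := hab.ne
  by_cases hva : v = a
  · subst hva
    rw [Finset.sum_eq_single b]
    · simp [hne]
    · intro u _ hu
      beta_reduce
      rw [if_neg]
      intro h
      exact hu (Sym2.congr_right.mp h)
    · intro h
      exact absurd ((SimpleGraph.mem_neighborFinset B v b).mpr hab) h
  · by_cases hvb : v = b
    · subst hvb
      rw [Finset.sum_eq_single a]
      · have : s(v, a) = s(a, v) := Sym2.eq_swap
        simp [hne.symm, this]
      · intro u _ hu
        beta_reduce
        rw [if_neg]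
        intro h
        rw [Sym2.eq_swap (a := a)] at h
        exact hu (Sym2.congr_right.mp h)
      · intro h
        exact absurd ((SimpleGraph.mem_neighborFinset B v a).mpr hab.symm) h
    · rw [Finset.sum_eq_zero]
      · simp [hva, hvb]
      · intro u _
        beta_reduce
        rw [if_neg]
        intro h
        rcases Sym2.eq_iff.mp h with h | h
        · exact hva h.1
        · exact hvb h.1

/-- A path in the free graph gives an edge function with the two ends as boundary that vanishes on
the edges of all classes of `X`. -/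
lemma exists_flip {X : Finset (BV ⊕ Pr)} {w w' : BV} (h : (freeG B Fr X).Reachable w w') :
    ∃ g : Sym2 BV → ZMod 2,
      (∀ v, bd B g v = (if v = w then 1 else 0) + (if v = w' then 1 else 0)) ∧
      ∀ c' ∈ X, ∀ e ∈ edgesOf B Fr c', g e = 0 := by
  obtain ⟨p⟩ := h
  induction p with
  | nil =>
    refine ⟨fun _ => 0, fun v => ?_, fun _ _ _ _ => rfl⟩
    unfold bd
    simp only [Finset.sum_const_zero]
    exact (zmod2_add_self _).symm
  | @cons a b c hab _ ih =>
    obtain ⟨g, hg1, hg2⟩ := ih
    refine ⟨fun e => g e + if e = s(a, b) then 1 else 0, fun v => ?_, fun c' hc' e he => ?_⟩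
    · rw [bd_add, hg1, bd_single B hab.1]
      generalize (if v = a then (1 : ZMod 2) else 0) = A
      generalize (if v = b then (1 : ZMod 2) else 0) = C
      generalize (if v = c then (1 : ZMod 2) else 0) = D
      revert A C D
      decide
    · beta_reduce
      rw [hg2 c' hc' e he, zero_add, if_neg]
      rintro rfl
      cases c' with
      | inl u =>
        have : s(a, b) ∈ (B.neighborFinset u).image fun y => s(u, y) := he
        obtain ⟨y, -, hy⟩ := mem_image.mp this
        have hu : u ∈ s(a, b) := by
          rw [← hy]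
          exact Sym2.mem_mk_left _ _
        rcases Sym2.mem_iff.mp hu with rfl | rfl
        · exact hab.2.1 hc'
        · exact hab.2.2.1 hc'
      | inr q =>
        exact hab.2.2.2 q hc' he

end Generic


end Vale.Agent.Lib.P310F.R
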