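import Vale.Agent.Lib.P310F.R.Conn
import Vale.Agent.Lib.P310F.R.ChooseQ

set_option linter.unusedSectionVars false

namespace Vale.Agent.Lib.P310F.R

open Finset

section

variable {I Cl Let : Type} [Fintype I] [DecidableEq I] [Fintype Cl] [DecidableEq Cl]
  [Fintype Let] [DecidableEq Let]
variable [NumE (Gr × I)] [NumE Cl]
variable {g : ℕ} [NumE (RV I Cl g ⊕ Let)] (gr : Cl → Gr) (co : Let → I) (cov : Cl → Let → Prop)

/-- Every coordinate has a letter. -/
def RegL (F : Finset Let) : Prop := ∀ i, ∃ l ∈ F, co l = i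

/-- All groups except the one opposite `τ` are covered. -/
def SS (τ : Fin 3) (F : Finset Let) : Prop := ∀ ρ, ρ ≠ τ → Cv gr cov (Sum.inl ρ) F

/-- The group between hub `τ` and its partner is covered. -/
def Zc (τ : Fin 3) (F : Finset Let) : Prop := Cv gr cov (Sum.inr τ) F

lemma Cv.mono {G : Gr} {F F' : Finset Let} (h : F ⊆ F') (hc : Cv gr cov G F) :
    Cv gr cov G F' := by
  intro κ hκ
  obtain ⟨l, hl, hc⟩ := hc κ hκ
  exact ⟨l, h hl, hc⟩

lemma SS.mono {τ : Fin 3} {F F' : Finset Let} (h : F ⊆ F') (hc : SS gr cov τ F) :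
    SS gr cov τ F' := fun ρ hρ => (hc ρ hρ).mono gr cov h

lemma RegL.mono {F F' : Finset Let} (h : F ⊆ F') (hc : RegL co F) : RegL co F' := by
  intro i
  obtain ⟨l, hl, hc⟩ := hc i
  exact ⟨l, h hl, hc⟩

lemma RegL.card_le {F : Finset Let} (h : RegL co F) : Fintype.card I ≤ F.card := by
  classical
  have : (univ : Finset I) ⊆ F.image co := by
    intro i _
    obtain ⟨l, hl, hc⟩ := h i
    exact mem_image.mpr ⟨l, hl, hc⟩
  calc Fintype.card I = (univ : Finset I).card := rfl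
    _ ≤ (F.image co).card := card_le_card this
    _ ≤ F.card := card_image_le

lemma toRight_mono {X Y : Finset (RV I Cl g ⊕ Let)} (h : X ⊆ Y) : X.toRight ⊆ Y.toRight :=
  toRight_subset_toRight h

/-- The parity of a charge in region `τ`. -/
def qr (b : RV I Cl g → ZMod 2) (τ : Fin 3) : ZMod 2 := ∑ v, if v.1.1 = τ then b v else 0

lemma sum_qr (b : RV I Cl g → ZMod 2) : ∑ τ, qr b τ = ∑ v, b v := by
  unfold qr
  rw [Finset.sum_comm]
  apply Finset.sum_congr rfl
  intro v _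
  simp

/-- Charge placed by parities at one vertex of each region. -/
def chargeOf (q : Fin 3 → ZMod 2) (φ : Fin 3 → RV I Cl g) : RV I Cl g → ZMod 2 :=
  fun v => ∑ τ, q τ * unitC (φ τ) v

lemma sum_unitC (u : RV I Cl g) : ∑ v, unitC u v = 1 := by
  unfold unitC
  simp

lemma chargeOf_total (q : Fin 3 → ZMod 2) (φ : Fin 3 → RV I Cl g) :
    ∑ v, chargeOf q φ v = ∑ τ, q τ := by
  unfold chargeOf
  rw [Finset.sum_comm]
  apply Finset.sum_congr rfl
  intro τ _
  rw [← Finset.mul_sum, sum_unitC, mul_one]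

lemma chargeOf_support {q : Fin 3 → ZMod 2} {φ : Fin 3 → RV I Cl g} {v : RV I Cl g}
    (h : chargeOf q φ v ≠ 0) : ∃ τ, q τ ≠ 0 ∧ v = φ τ := by
  by_contra hcon
  push Not at hcon
  apply h
  unfold chargeOf
  apply Finset.sum_eq_zero
  intro τ _
  by_cases hq : q τ = 0
  · rw [hq, zero_mul]
  · unfold unitC
    rw [if_neg (hcon τ hq), mul_zero]

lemma qr_chargeOf (q : Fin 3 → ZMod 2) {φ : Fin 3 → RV I Cl g} (hφ : ∀ τ, (φ τ).1.1 = τ)
    (τ : Fin 3) : qr (chargeOf q φ) τ = q τ := by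
  unfold qr chargeOf
  have : ∀ v : RV I Cl g, (if v.1.1 = τ then ∑ τ', q τ' * unitC (φ τ') v else 0) =
      ∑ τ', q τ' * (if v.1.1 = τ then unitC (φ τ') v else 0) := by
    intro v
    by_cases hv : v.1.1 = τ
    · simp [hv]
    · simp [hv]
  rw [Finset.sum_congr rfl fun v _ => this v, Finset.sum_comm]
  rw [Finset.sum_eq_single τ]
  · rw [← Finset.mul_sum]
    have h2 : ∑ v : RV I Cl g, (if v.1.1 = τ then unitC (φ τ) v else 0) = 1 := by
      rw [Finset.sum_eq_single (φ τ)]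
      · rw [if_pos (hφ τ)]
        simp [unitC]
      · intro v _ hv
        unfold unitC
        rw [if_neg hv]
        simp
      · intro h
        exact absurd (mem_univ _) h
    rw [h2, mul_one]
  · intro τ' _ hτ'
    rw [← Finset.mul_sum]
    have h2 : ∑ v : RV I Cl g, (if v.1.1 = τ then unitC (φ τ') v else 0) = 0 := by
      apply Finset.sum_eq_zero
      intro v _
      by_cases hv : v.1.1 = τ
      · rw [if_pos hv]
        unfold unitC
        rw [if_neg]
        intro he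
        apply hτ'
        rw [← hφ τ', ← he, hv]
      · rw [if_neg hv]
    rw [h2, mul_zero]
  · intro h
    exact absurd (mem_univ _) h

lemma charge_group (b : RV I Cl g → ZMod 2) (ψ : Fin 3 → RV I Cl g) (v : RV I Cl g) :
    ∑ u, b u * unitC (ψ u.1.1) v = chargeOf (qr b) ψ v := by
  unfold chargeOf qr
  have : ∀ τ : Fin 3, (∑ u : RV I Cl g, if u.1.1 = τ then b u else 0) * unitC (ψ τ) v =
      ∑ u : RV I Cl g, (if u.1.1 = τ then b u * unitC (ψ u.1.1) v else 0) := by
    intro τ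
    rw [Finset.sum_mul]
    apply Finset.sum_congr rfl
    intro u _
    by_cases hu : u.1.1 = τ
    · rw [if_pos hu, if_pos hu, hu]
    · rw [if_neg hu, if_neg hu, zero_mul]
  rw [Finset.sum_congr rfl fun τ _ => this τ, Finset.sum_comm]
  apply Finset.sum_congr rfl
  intro u _
  simp

variable (K : Fin 3 → Finset Let → Prop) (T1 : Finset Let → Prop) (Kc : ℕ)

/-- The Duplicator's safe charges. -/
structure SafeR (X : Finset (RV I Cl g ⊕ Let)) (b : RV I Cl g → ZMod 2) : Prop where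
  card : X.card ≤ Kc + 3
  total : ∑ v, b v = 1
  sites : ∀ v, b v ≠ 0 → IsSite X v
  nobar : RegL co X.toRight → ∀ v, b v ≠ 0 → ¬ Barrier X v.1
  partner : RegL co X.toRight → ∀ v, b v ≠ 0 → v.1.2 = true → ¬ Zc gr cov v.1.1 X.toRight
  rule0 : RegL co X.toRight → SS gr cov 0 X.toRight →
    (K 0 X.toRight → qr b 0 = 1) ∧ (T1 X.toRight → qr b 0 = 0)
  rule : RegL co X.toRight → ∀ τ, τ ≠ 0 → SS gr cov τ X.toRight → K τ X.toRight → qr b τ = 0

/-- The properties of the predicates `K` and `T1` used by the Duplicator. -/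
structure Model : Prop where
  hm : ∀ τ F F', F ⊆ F' → RegL co F → F'.card ≤ Kc + 3 → SS gr cov τ F → (K τ F ↔ K τ F')
  hmT : ∀ F F', F ⊆ F' → RegL co F → F'.card ≤ Kc + 3 → SS gr cov 0 F → (T1 F ↔ T1 F')
  hs0 : ∀ F, RegL co F → F.card ≤ Kc + 3 → SS gr cov 0 F → Zc gr cov 0 F → T1 F
  hs : ∀ τ F, τ ≠ 0 → RegL co F → F.card ≤ Kc + 3 → SS gr cov τ F → Zc gr cov τ F → K τ F
  ht : ∀ F, RegL co F → F.card ≤ Kc + 3 → (∀ ρ, Cv gr cov (Sum.inl ρ) F) →
    (K 1 F → K 2 F → K 0 F) ∧ (K 0 F → K 1 F → K 2 F) ∧ (K 0 F → K 2 F → K 1 F) ∧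
      (T1 F → ¬ K 1 F ∧ ¬ K 2 F)
  ht0 : ∀ F, RegL co F → F.card ≤ Kc + 3 → SS gr cov 0 F → T1 F → ¬ K 0 F

variable {K T1 Kc}

lemma ss_zero {F : Finset Let} :
    SS gr cov 0 F ↔ Cv gr cov (Sum.inl 1) F ∧ Cv gr cov (Sum.inl 2) F := by
  constructor
  · intro h
    exact ⟨h 1 (by decide), h 2 (by decide)⟩
  · rintro ⟨h1, h2⟩ ρ hρ
    fin_cases ρ
    · exact absurd rfl hρ
    · exact h1
    · exact h2

lemma ss_one {F : Finset Let} :
    SS gr cov 1 F ↔ Cv gr cov (Sum.inl 0) F ∧ Cv gr cov (Sum.inl 2) F := by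
  constructor
  · intro h
    exact ⟨h 0 (by decide), h 2 (by decide)⟩
  · rintro ⟨h1, h2⟩ ρ hρ
    fin_cases ρ
    · exact h1
    · exact absurd rfl hρ
    · exact h2

lemma ss_two {F : Finset Let} :
    SS gr cov 2 F ↔ Cv gr cov (Sum.inl 0) F ∧ Cv gr cov (Sum.inl 1) F := by
  constructor
  · intro h
    exact ⟨h 0 (by decide), h 1 (by decide)⟩
  · rintro ⟨h1, h2⟩ ρ hρ
    fin_cases ρ
    · exact h1
    · exact h2
    · exact absurd rfl hρ

lemma SafeR.mono (M : Model gr co cov K T1 Kc) {X X' : Finset (RV I Cl g ⊕ Let)}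
    {b : RV I Cl g → ZMod 2} (h : X' ⊆ X) (hs : SafeR gr co cov K T1 Kc X b) :
    SafeR gr co cov K T1 Kc X' b := by
  have hF := toRight_mono (g := g) h
  have hcard : X.toRight.card ≤ Kc + 3 := by
    have := card_toLeft_add_card_toRight (u := X)
    have := hs.card
    omega
  refine ⟨(card_le_card h).trans hs.card, hs.total, fun v hv => (hs.sites v hv).mono h, ?_, ?_, ?_, ?_⟩
  · intro hR v hv hb
    exact hs.nobar (hR.mono co hF) v hv (hb.mono h)
  · intro hR v hv hp hz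
    exact hs.partner (hR.mono co hF) v hv hp (Cv.mono gr cov hF hz)
  · intro hR hS
    obtain ⟨h1, h2⟩ := hs.rule0 (hR.mono co hF) (hS.mono gr cov hF)
    exact ⟨fun hK => h1 ((M.hm 0 _ _ hF hR hcard hS).mp hK),
      fun hT => h2 ((M.hmT _ _ hF hR hcard hS).mp hT)⟩
  · intro hR τ hτ hS hK
    exact hs.rule (hR.mono co hF) τ hτ (hS.mono gr cov hF) ((M.hm τ _ _ hF hR hcard hS).mp hK)

/-- With a missing coordinate, two charges of total 1 on sites are related. -/
lemma rel_of_missing {X : Finset (RV I Cl g ⊕ Let)} {i : I}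
    (hi : ∀ l, (Sum.inr l : RV I Cl g ⊕ Let) ∈ X → co l ≠ i) (hX : X.toLeft.card < g)
    {b b' : RV I Cl g → ZMod 2} (h1 : ∑ v, b v = 1) (h2 : ∑ v, b' v = 1)
    (h3 : ∀ v, b v ≠ 0 → IsSite X v) (h4 : ∀ v, b' v ≠ 0 → IsSite X v) :
    Rel (rb gr) (frL gr co cov) X b b' := by
  obtain ⟨a, ha⟩ := exists_unt hX (0, false)
  let R0 : RV I Cl g := ((0, false), colF a (Sum.inl 0, i), false)
  have hR0 : IsSite X R0 := ⟨a, colF_inChunk a _, ha⟩
  have key : ∀ b : RV I Cl g → ZMod 2, ∑ v, b v = 1 → (∀ v, b v ≠ 0 → IsSite X v) →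
      Rel (rb gr) (frL gr co cov) X b (unitC R0) := by
    intro b hb1 hb2
    refine (Rel.move_all b (fun _ => R0) fun u hu =>
      reach_sites gr co cov hi hX (hb2 u hu) hR0).trans (Rel.of_eq fun v => ?_)
    rw [← Finset.sum_mul, hb1, one_mul]
  exact (key b h1 h3).trans (key b' h2 h4).symm

lemma zmod2_cases (a : ZMod 2) : a = 0 ∨ a = 1 := by
  revert a
  decide

/-- Parities that agree on isolated regions give related charges at the roots. -/
lemma rel_roots {X : Finset (RV I Cl g ⊕ Let)} {P : Fin 4} (hU : UntP X P) (κ₀ : Cl)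
    {q q' : Fin 3 → ZMod 2} (hq : ∑ τ, q τ = 1) (hq' : ∑ τ, q' τ = 1)
    (hA : ∀ τ, SS gr cov τ X.toRight → q' τ = q τ) :
    Rel (rb gr) (frL gr co cov) X (chargeOf q (rootH P κ₀)) (chargeOf q' (rootH P κ₀)) := by
  -- roots of two nonisolated regions are connected
  have hC : ∀ ρ, ¬ Cv gr cov (Sum.inl ρ) X.toRight →
      (FG gr co cov X).Reachable (rootH P κ₀ (ρ + 1)) (rootH P κ₀ (ρ + 2)) :=
    fun ρ hρ => open_reach gr co cov hU κ₀ hρ
  have h12 := hC 0
  have h20 := hC 1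
  have h01 := hC 2
  simp only [zero_add] at h12
  have e1 : (1 : Fin 3) + 1 = 2 := rfl
  have e2 : (1 : Fin 3) + 2 = 0 := rfl
  have e3 : (2 : Fin 3) + 1 = 0 := rfl
  have e4 : (2 : Fin 3) + 2 = 1 := rfl
  rw [e1, e2] at h20
  rw [e3, e4] at h01
  have s0 := (ss_zero gr cov (F := X.toRight))
  have s1 := (ss_one gr cov (F := X.toRight))
  have s2 := (ss_two gr cov (F := X.toRight))
  have a0 := hA 0
  have a1 := hA 1
  have a2 := hA 2
  rw [s0] at a0
  rw [s1] at a1
  rw [s2] at a2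
  rw [Fin.sum_univ_three] at hq hq'
  have unfoldC : ∀ (q : Fin 3 → ZMod 2) v, chargeOf q (rootH (I := I) (g := g) P κ₀) v =
      q 0 * unitC (rootH P κ₀ 0) v + q 1 * unitC (rootH P κ₀ 1) v +
        q 2 * unitC (rootH P κ₀ 2) v := by
    intro q v
    unfold chargeOf
    rw [Fin.sum_univ_three]
  -- the relation of two unit charges
  have R : ∀ (x y : Fin 3), (FG gr co cov X).Reachable (rootH P κ₀ x) (rootH P κ₀ y) →
      Rel (rb gr) (frL gr co cov) X (fun v => unitC (rootH P κ₀ x) v + unitC (rootH P κ₀ y) v)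
        (fun _ => 0) := by
    intro x y hxy
    have := (Rel.of_reach hxy).add (Rel.refl (B := rb gr) (Fr := frL gr co cov) (X := X)
      (unitC (rootH P κ₀ y)))
    refine this.trans (Rel.of_eq fun v => ?_)
    exact zmod2_add_self _
  have R01 : ¬ SS gr cov 0 X.toRight → ¬ SS gr cov 1 X.toRight →
      (FG gr co cov X).Reachable (rootH P κ₀ 0) (rootH P κ₀ 1) := by
    intro h0 h1
    rw [s0] at h0
    rw [s1] at h1
    by_cases c2 : Cv gr cov (Sum.inl 2) X.toRight
    · have c1 : ¬ Cv gr cov (Sum.inl 1) X.toRight := fun h => h0 ⟨h, c2⟩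
      have c0 : ¬ Cv gr cov (Sum.inl 0) X.toRight := fun h => h1 ⟨h, c2⟩
      exact (h20 c1).symm.trans (h12 c0).symm
    · exact h01 c2
  have R02 : ¬ SS gr cov 0 X.toRight → ¬ SS gr cov 2 X.toRight →
      (FG gr co cov X).Reachable (rootH P κ₀ 0) (rootH P κ₀ 2) := by
    intro h0 h2
    rw [s0] at h0
    rw [s2] at h2
    by_cases c1 : Cv gr cov (Sum.inl 1) X.toRight
    · have c2 : ¬ Cv gr cov (Sum.inl 2) X.toRight := fun h => h0 ⟨c1, h⟩
      have c0 : ¬ Cv gr cov (Sum.inl 0) X.toRight := fun h => h2 ⟨h, c1⟩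
      exact (h01 c2).trans (h12 c0)
    · exact (h20 c1).symm
  have R12 : ¬ SS gr cov 1 X.toRight → ¬ SS gr cov 2 X.toRight →
      (FG gr co cov X).Reachable (rootH P κ₀ 1) (rootH P κ₀ 2) := by
    intro h1 h2
    rw [s1] at h1
    rw [s2] at h2
    by_cases c0 : Cv gr cov (Sum.inl 0) X.toRight
    · have c2 : ¬ Cv gr cov (Sum.inl 2) X.toRight := fun h => h1 ⟨c0, h⟩
      have c1 : ¬ Cv gr cov (Sum.inl 1) X.toRight := fun h => h2 ⟨c0, h⟩
      exact (h01 c2).symm.trans (h20 c1).symm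
    · exact h12 c0
  -- it suffices to show that the sum is related to zero
  have hd : ∀ τ, q τ + q' τ = 1 → ¬ SS gr cov τ X.toRight := by
    intro τ h hS
    rw [hA τ hS, zmod2_add_self] at h
    exact absurd h (by decide)
  have hsum : (q 0 + q' 0) + (q 1 + q' 1) + (q 2 + q' 2) = 0 := by
    have : (q 0 + q 1 + q 2) + (q' 0 + q' 1 + q' 2) = 0 := by
      rw [hq, hq']
      decide
    rw [← this]
    ring
  have hfun : ∀ v, chargeOf q (rootH (I := I) (g := g) P κ₀) v +
      chargeOf q' (rootH P κ₀) v =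
      (q 0 + q' 0) * unitC (rootH P κ₀ 0) v + (q 1 + q' 1) * unitC (rootH P κ₀ 1) v +
        (q 2 + q' 2) * unitC (rootH P κ₀ 2) v := by
    intro v
    rw [unfoldC, unfoldC]
    ring
  have main : Rel (rb gr) (frL gr co cov) X
      (fun v => chargeOf q (rootH P κ₀) v + chargeOf q' (rootH P κ₀) v) (fun _ => 0) := by
    rcases zmod2_cases (q 0 + q' 0) with h0 | h0 <;> rcases zmod2_cases (q 1 + q' 1) with h1 | h1
    · have h2 : q 2 + q' 2 = 0 := by
        rw [h0, h1] at hsum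
        simpa using hsum
      refine Rel.of_eq fun v => ?_
      rw [hfun, h0, h1, h2]
      simp
    · have h2 : q 2 + q' 2 = 1 := by
        rw [h0, h1] at hsum
        revert hsum
        generalize q 2 + q' 2 = A
        revert A
        decide
      refine (Rel.of_eq fun v => ?_).trans (R 1 2 (R12 (hd 1 h1) (hd 2 h2)))
      rw [hfun, h0, h1, h2]
      simp
    · have h2 : q 2 + q' 2 = 1 := by
        rw [h0, h1] at hsum
        revert hsum
        generalize q 2 + q' 2 = A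
        revert A
        decide
      refine (Rel.of_eq fun v => ?_).trans (R 0 2 (R02 (hd 0 h0) (hd 2 h2)))
      rw [hfun, h0, h1, h2]
      simp
    · have h2 : q 2 + q' 2 = 0 := by
        rw [h0, h1] at hsum
        revert hsum
        generalize q 2 + q' 2 = A
        revert A
        decide
      refine (Rel.of_eq fun v => ?_).trans (R 0 1 (R01 (hd 0 h0) (hd 1 h1)))
      rw [hfun, h0, h1, h2]
      simp
  have := main.add (Rel.refl (B := rb gr) (Fr := frL gr co cov) (X := X)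
    (chargeOf q' (rootH P κ₀)))
  refine (Rel.of_eq fun v => ?_).trans (this.trans (Rel.of_eq fun v => ?_))
  · exact (zmod2_add_add_self _ _).symm
  · exact zero_add _

end

end Vale.Agent.Lib.P310F.R
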