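import Vale.Agent.Lib.P310F.R.Defs

/-!
The room and door base graph over a clause system.

A clause system consists of finite types `I` (coordinates), `Cl` (clauses), `Let` (letters), a map
`co : Let → I`, a coverage relation `cov : Cl → Let → Prop` and a group `gr : Cl → Gr` for each
clause.  The base graph has six rooms, each a ladder with two lanes.  Doors are edges between rooms:
four doors per clause (same column in its two end rooms) and, for each group `G`, coordinate `i` and
pair of chunks `a b`, one forcing door between the column of `(G, i)` in chunk `a` of the first end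
room and the column of `(G, i)` in chunk `b` of the second end room.
A letter reads the doors of the clauses it covers and the forcing doors of its coordinate.
-/

namespace Vale.Agent.Lib.P310F.R

open Finset

/-- Rooms: `(τ, false)` is hub `τ`, `(τ, true)` is the partner of hub `τ`. -/
abbrev Room : Type := Fin 3 × Bool

/-- Door groups: `inl ρ` joins the two hubs other than `ρ`; `inr τ` joins hub `τ` and its partner. -/
abbrev Gr : Type := Fin 3 ⊕ Fin 3

/-- First end room of a door group. -/
def grA : Gr → Room
  | Sum.inl ρ => (ρ + 1, false)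
  | Sum.inr τ => (τ, false)

/-- Second end room of a door group. -/
def grB : Gr → Room
  | Sum.inl ρ => (ρ + 2, false)
  | Sum.inr τ => (τ, true)

section

variable (I Cl : Type) [Fintype I] [Fintype Cl] (g : ℕ)

/-- Columns: `g` chunks with one column per pair (group, coordinate), then four periods with one
column per clause. -/
abbrev Cols : Type := Fin (g * Fintype.card (Gr × I) + 4 * Fintype.card Cl)

/-- Base vertices: room, column, lane. -/
abbrev RV : Type := Room × Cols I Cl g × Bool

/-- Doors: (clause, period) or ((group, coordinate), chunk, chunk). -/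
abbrev Door : Type := (Cl × Fin 4) ⊕ ((Gr × I) × Fin g × Fin g)

variable {I Cl g}
variable [NumE (Gr × I)] [NumE Cl]

/-- The column of `x` in chunk `a`. -/
noncomputable def colF (a : Fin g) (x : Gr × I) : Cols I Cl g :=
  ⟨a.val * Fintype.card (Gr × I) + (NumE.e (α := Gr × I) x).val, by
    have h1 := (NumE.e (α := Gr × I) x).isLt
    have h2 : (a.val + 1) * Fintype.card (Gr × I) ≤ g * Fintype.card (Gr × I) :=
      Nat.mul_le_mul_right _ a.isLt
    have h3 : (a.val + 1) * Fintype.card (Gr × I) =
      a.val * Fintype.card (Gr × I) + Fintype.card (Gr × I) := by ring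
    omega⟩

/-- The column of clause `κ` in period `P`. -/
noncomputable def colC (P : Fin 4) (κ : Cl) : Cols I Cl g :=
  ⟨g * Fintype.card (Gr × I) + P.val * Fintype.card Cl + (NumE.e (α := Cl) κ).val, by
    have h1 := (NumE.e (α := Cl) κ).isLt
    have h2 : (P.val + 1) * Fintype.card Cl ≤ 4 * Fintype.card Cl :=
      Nat.mul_le_mul_right _ (by omega)
    have h3 : (P.val + 1) * Fintype.card Cl = P.val * Fintype.card Cl + Fintype.card Cl := by ring
    omega⟩

variable (gr : Cl → Gr)

/-- First end of a door. -/
noncomputable def dA : Door I Cl g → RV I Cl g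
  | Sum.inl q => (grA (gr q.1), colC q.2 q.1, false)
  | Sum.inr q => (grA q.1.1, colF q.2.1 q.1, false)

/-- Second end of a door. -/
noncomputable def dB : Door I Cl g → RV I Cl g
  | Sum.inl q => (grB (gr q.1), colC q.2 q.1, false)
  | Sum.inr q => (grB q.1.1, colF q.2.2 q.1, false)

lemma grA_ne_grB (G : Gr) : grA G ≠ grB G := by
  rcases G with ρ | τ
  · simp only [grA, grB, ne_eq, Prod.mk.injEq, and_true]
    revert ρ
    decide
  · simp [grA, grB]

lemma dA_room_ne (d : Door I Cl g) : (dA gr d).1 ≠ (dB gr d).1 := by
  rcases d with q | q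
  · exact grA_ne_grB _
  · exact grA_ne_grB _

/-- The base graph: each room is a ladder, and doors join rooms. -/
def rb : SimpleGraph (RV I Cl g) where
  Adj u v :=
    (u.1 = v.1 ∧ ((u.2.1 = v.2.1 ∧ u.2.2 ≠ v.2.2) ∨
      (u.2.2 = v.2.2 ∧ (u.2.1.val + 1 = v.2.1.val ∨ v.2.1.val + 1 = u.2.1.val)))) ∨
    ∃ d : Door I Cl g, (u = dA gr d ∧ v = dB gr d) ∨ (u = dB gr d ∧ v = dA gr d)
  symm := ⟨by
    rintro u v (⟨h1, h2⟩ | ⟨d, h⟩)
    · refine Or.inl ⟨h1.symm, ?_⟩
      rcases h2 with ⟨h2, h3⟩ | ⟨h2, h3⟩
      · exact Or.inl ⟨h2.symm, fun h => h3 h.symm⟩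
      · exact Or.inr ⟨h2.symm, h3.symm⟩
    · rcases h with ⟨h1, h2⟩ | ⟨h1, h2⟩
      · exact Or.inr ⟨d, Or.inr ⟨h2, h1⟩⟩
      · exact Or.inr ⟨d, Or.inl ⟨h2, h1⟩⟩⟩
  loopless := ⟨by
    rintro u (⟨-, h2⟩ | ⟨d, h⟩)
    · rcases h2 with ⟨-, h3⟩ | ⟨-, h3⟩
      · exact h3 rfl
      · omega
    · rcases h with ⟨h1, h2⟩ | ⟨h1, h2⟩
      · exact dA_room_ne gr d (by rw [← h1, ← h2])
      · exact dA_room_ne gr d (by rw [← h1, ← h2])⟩

noncomputable instance : DecidableRel (rb (I := I) (g := g) gr).Adj := Classical.decRel _

/-- The door as an edge of the base graph. -/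
noncomputable def edge (d : Door I Cl g) : Sym2 (RV I Cl g) := s(dA gr d, dB gr d)

variable {Let : Type} (co : Let → I) (cov : Cl → Let → Prop)

/-- A letter reads the doors of the clauses it covers and the forcing doors of its coordinate. -/
def reads (l : Let) : Door I Cl g → Prop
  | Sum.inl q => cov q.1 l
  | Sum.inr q => co l = q.1.2

variable [DecidableEq I] [DecidableEq Cl]

open Classical in
/-- The edges read by a letter. -/
noncomputable def frL (l : Let) : Finset (Sym2 (RV I Cl g)) :=
  (univ.filter (reads (g := g) co cov l)).image (edge gr)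

/-- The parity function with a single 1, at column 0, lane `false` of hub 0. -/
def twistR (v : RV I Cl g) : ZMod 2 :=
  if v.1 = (0, false) ∧ v.2.1.val = 0 ∧ v.2.2 = false then 1 else 0

variable [Fintype Let] [DecidableEq Let] [NumE (RV I Cl g ⊕ Let)]

/-- The untwisted graph of a clause system. -/
noncomputable def srcR : SimpleGraph (VT (rb (I := I) (g := g) gr) (frL gr co cov) (fun _ => 0)) :=
  vtGraph _ _ _

/-- The twisted graph of a clause system. -/
noncomputable def tgtR : SimpleGraph (VT (rb (I := I) (g := g) gr) (frL gr co cov) twistR) :=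
  vtGraph _ _ _

end

end Vale.Agent.Lib.P310F.R
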