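import Vale.Agent.Lib.P310F.R.SInd

/-!
The types of the clause system as sum types.
-/

namespace Vale.Agent.Lib.P310F.R

variable {Λ St : Type} {N pad bL bS : ℕ}

/-- Coordinates as a sum type. -/
def SCo.equiv : SCo N pad ≃ (Fin 3 × Fin 4 × Fin (N + 1)) ⊕ (Fin 4 × Fin (N + 1)) ⊕ Fin pad where
  toFun
    | SCo.cf τ j l => Sum.inl (τ, j, l)
    | SCo.cw j l => Sum.inr (Sum.inl (j, l))
    | SCo.cp i => Sum.inr (Sum.inr i)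
  invFun
    | Sum.inl (τ, j, l) => SCo.cf τ j l
    | Sum.inr (Sum.inl (j, l)) => SCo.cw j l
    | Sum.inr (Sum.inr i) => SCo.cp i
  left_inv x := by cases x <;> rfl
  right_inv x := by
    rcases x with ⟨τ, j, l⟩ | ⟨j, l⟩ | i <;> rfl

/-- Letters as a sum type. -/
def SLet.equiv : SLet Λ St N pad ≃ (Fin 3 × Fin 4 × Fin (N + 1) × Λ × Bool) ⊕
    (Fin 4 × Fin (N + 1) × (Fin 3 → Λ) × St × St × Fin 3) ⊕ Fin pad where
  toFun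
    | SLet.fld τ j l a f => Sum.inl (τ, j, l, a, f)
    | SLet.wit j l c u u' m => Sum.inr (Sum.inl (j, l, c, u, u', m))
    | SLet.pd i => Sum.inr (Sum.inr i)
  invFun
    | Sum.inl (τ, j, l, a, f) => SLet.fld τ j l a f
    | Sum.inr (Sum.inl (j, l, c, u, u', m)) => SLet.wit j l c u u' m
    | Sum.inr (Sum.inr i) => SLet.pd i
  left_inv x := by cases x <;> rfl
  right_inv x := by
    rcases x with ⟨τ, j, l, a, f⟩ | ⟨j, l, c, u, u', m⟩ | i <;> rfl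

/-- Clauses as a sum type. -/
def SCl.equiv : SCl N bL bS ≃ (Fin 3 × Fin 4 × Fin 4 × Fin (N + 1) × Fin bL × Bool) ⊕
    (Fin 3 × Fin 4 × Fin (N + 1)) ⊕ (Fin 3 × Fin 4 × Fin (N + 1) × Fin bL × Bool) ⊕
    (Fin 4 × Fin (N + 1)) ⊕ (Fin 4 × Fin N × Fin bS × Bool) ⊕ (Fin 4 × Fin (N + 1)) ⊕
    (Fin 4 × Fin (N + 1)) ⊕ (Fin 3 × Fin 4) where
  toFun
    | SCl.cq τ j j' l bit x => Sum.inl (τ, j, j', l, bit, x)
    | SCl.fl τ j l => Sum.inr (Sum.inl (τ, j, l))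
    | SCl.rl τ j l bit x => Sum.inr (Sum.inr (Sum.inl (τ, j, l, bit, x)))
    | SCl.vl j l => Sum.inr (Sum.inr (Sum.inr (Sum.inl (j, l))))
    | SCl.ad j l bit x => Sum.inr (Sum.inr (Sum.inr (Sum.inr (Sum.inl (j, l, bit, x)))))
    | SCl.dc j l => Sum.inr (Sum.inr (Sum.inr (Sum.inr (Sum.inr (Sum.inl (j, l))))))
    | SCl.ec j l => Sum.inr (Sum.inr (Sum.inr (Sum.inr (Sum.inr (Sum.inr (Sum.inl (j, l)))))))
    | SCl.zc τ j => Sum.inr (Sum.inr (Sum.inr (Sum.inr (Sum.inr (Sum.inr (Sum.inr (τ, j)))))))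
  invFun
    | Sum.inl (τ, j, j', l, bit, x) => SCl.cq τ j j' l bit x
    | Sum.inr (Sum.inl (τ, j, l)) => SCl.fl τ j l
    | Sum.inr (Sum.inr (Sum.inl (τ, j, l, bit, x))) => SCl.rl τ j l bit x
    | Sum.inr (Sum.inr (Sum.inr (Sum.inl (j, l)))) => SCl.vl j l
    | Sum.inr (Sum.inr (Sum.inr (Sum.inr (Sum.inl (j, l, bit, x))))) => SCl.ad j l bit x
    | Sum.inr (Sum.inr (Sum.inr (Sum.inr (Sum.inr (Sum.inl (j, l)))))) => SCl.dc j l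
    | Sum.inr (Sum.inr (Sum.inr (Sum.inr (Sum.inr (Sum.inr (Sum.inl (j, l))))))) => SCl.ec j l
    | Sum.inr (Sum.inr (Sum.inr (Sum.inr (Sum.inr (Sum.inr (Sum.inr (τ, j))))))) => SCl.zc τ j
  left_inv x := by cases x <;> rfl
  right_inv x := by
    rcases x with ⟨_, _⟩ | ⟨_, _⟩ | ⟨_, _⟩ | ⟨_, _⟩ | ⟨_, _⟩ | ⟨_, _⟩ | ⟨_, _⟩ | ⟨_, _⟩ <;> rfl

end Vale.Agent.Lib.P310F.R
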