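import Vale.Agent.Lib.P310F.R.RDefs

/-!
The types of the clause system of a string system.

Parameters: strings of length `N + 1` over an alphabet `Λ` on three tracks, a finite state set `St`,
and `pad` padding coordinates.
-/

namespace Vale.Agent.Lib.P310F.R

/-- Coordinates of the string system. -/
inductive SCo (N pad : ℕ) : Type
  | cf (τ : Fin 3) (j : Fin 4) (l : Fin (N + 1))
  | cw (j : Fin 4) (l : Fin (N + 1))
  | cp (i : Fin pad)

/-- Letters of the string system: a field letter holds a symbol and a flag; a witness letter holds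
the three symbols of its position, an input and an output state, and a mode. -/
inductive SLet (Λ St : Type) (N pad : ℕ) : Type
  | fld (τ : Fin 3) (j : Fin 4) (l : Fin (N + 1)) (a : Λ) (f : Bool)
  | wit (j : Fin 4) (l : Fin (N + 1)) (c : Fin 3 → Λ) (u u' : St) (m : Fin 3)
  | pd (i : Fin pad)

/-- Clauses of the string system. -/
inductive SCl (N bL bS : ℕ) : Type
  | cq (τ : Fin 3) (j j' : Fin 4) (l : Fin (N + 1)) (bit : Fin bL) (x : Bool)
  | fl (τ : Fin 3) (j : Fin 4) (l : Fin (N + 1))
  | rl (τ : Fin 3) (j : Fin 4) (l : Fin (N + 1)) (bit : Fin bL) (x : Bool)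
  | vl (j : Fin 4) (l : Fin (N + 1))
  | ad (j : Fin 4) (l : Fin N) (bit : Fin bS) (x : Bool)
  | dc (j : Fin 4) (l : Fin (N + 1))
  | ec (j : Fin 4) (l : Fin (N + 1))
  | zc (τ : Fin 3) (j : Fin 4)

end Vale.Agent.Lib.P310F.R
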