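import Vale.Agent.Lib.P310F.R.SYes

set_option linter.unusedSectionVars false

namespace Vale.Agent.Lib.P310F.R

open Finset

section

variable {Λ St : Type} [Fintype Λ] [DecidableEq Λ] [Fintype St] [DecidableEq St]
variable {N pad bL bS : ℕ}
variable [NumE (Gr × SCo N pad)] [NumE (SCl N bL bS)]
variable {enc : Λ → Fin bL → Bool} {encS : St → Fin bS → Bool}
  {Loc : Fin (N + 1) → Λ → Λ → Λ → St → St → Prop} {isOK : Fin 3 → Λ → Prop}

/-- At most one letter of `F` at coordinate `i`. -/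
def Uniq (F : Finset (SLet Λ St N pad)) (i : SCo N pad) : Prop :=
  ∀ x ∈ F, ∀ y ∈ F, coS x = i → coS y = i → x = y

/-- Copy `j` has exactly one letter at each coordinate. -/
def FS (F : Finset (SLet Λ St N pad)) (j : Fin 4) : Prop :=
  (∀ τ l, Uniq F (SCo.cf τ j l)) ∧ ∀ l, Uniq F (SCo.cw j l)

/-- The letters of track `τ` in copy `j` spell `v`. -/
def Reads (F : Finset (SLet Λ St N pad)) (τ : Fin 3) (j : Fin 4) (v : Fin (N + 1) → Λ) : Prop :=
  ∀ l, ∃ f, SLet.fld τ j l (v l) f ∈ F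

lemma Uniq.mono {F F' : Finset (SLet Λ St N pad)} (h : F ⊆ F') {i : SCo N pad} (hu : Uniq F' i) :
    Uniq F i := fun x hx y hy => hu x (h hx) y (h hy)

lemma FS.mono {F F' : Finset (SLet Λ St N pad)} (h : F ⊆ F') {j : Fin 4} (hu : FS F' j) :
    FS F j := ⟨fun τ l => (hu.1 τ l).mono h, fun l => (hu.2 l).mono h⟩

lemma Reads.mono {F F' : Finset (SLet Λ St N pad)} (h : F ⊆ F') {τ : Fin 3} {j : Fin 4}
    {v : Fin (N + 1) → Λ} (hu : Reads F τ j v) : Reads F' τ j v :=
  fun l => by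
    obtain ⟨f, hf⟩ := hu l
    exact ⟨f, h hf⟩

lemma exists_fld {F : Finset (SLet Λ St N pad)} (hR : RegL coS F) (τ : Fin 3) (j : Fin 4)
    (l : Fin (N + 1)) : ∃ a f, SLet.fld τ j l a f ∈ F := by
  obtain ⟨x, hx, hc⟩ := hR (SCo.cf τ j l)
  cases x with
  | fld τ' j' l' a f =>
    simp only [coS, SCo.cf.injEq] at hc
    obtain ⟨rfl, rfl, rfl⟩ := hc
    exact ⟨a, f, hx⟩
  | wit j' l' c u u' m => simp [coS] at hc
  | pd i => simp [coS] at hc

lemma exists_wit {F : Finset (SLet Λ St N pad)} (hR : RegL coS F) (j : Fin 4)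
    (l : Fin (N + 1)) : ∃ c u u' m, SLet.wit j l c u u' m ∈ F := by
  obtain ⟨x, hx, hc⟩ := hR (SCo.cw j l)
  cases x with
  | fld τ' j' l' a f => simp [coS] at hc
  | wit j' l' c u u' m =>
    simp only [coS, SCo.cw.injEq] at hc
    obtain ⟨rfl, rfl⟩ := hc
    exact ⟨c, u, u', m, hx⟩
  | pd i => simp [coS] at hc

lemma exists_reads {F : Finset (SLet Λ St N pad)} (hR : RegL coS F) (τ : Fin 3) (j : Fin 4) :
    ∃ v, Reads F τ j v := by
  have := fun l => exists_fld hR τ j l
  choose v f hv using this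
  exact ⟨v, fun l => ⟨f l, hv l⟩⟩

lemma reads_unique {F : Finset (SLet Λ St N pad)} {τ : Fin 3} {j : Fin 4}
    {v v' : Fin (N + 1) → Λ} (hF : FS F j) (h : Reads F τ j v) (h' : Reads F τ j v') : v = v' := by
  funext l
  obtain ⟨f, hf⟩ := h l
  obtain ⟨f', hf'⟩ := h' l
  have := hF.1 τ l _ hf _ hf' rfl rfl
  simp only [SLet.fld.injEq, true_and] at this
  exact this.1

/-- The copy of a coordinate. -/
def copyOf : SCo N pad → Option (Fin 4)
  | SCo.cf _ j _ => some j
  | SCo.cw j _ => some j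
  | SCo.cp _ => none

/-- With at most three letters too many there is a fully single copy. -/
lemma exists_FS {F : Finset (SLet Λ St N pad)} (hR : RegL coS F)
    (hc : F.card ≤ Fintype.card (SCo N pad) + 3) : ∃ j, FS F j := by
  classical
  by_contra hcon
  push Not at hcon
  have hbad : ∀ j : Fin 4, ∃ i : SCo N pad, copyOf i = some j ∧ ¬ Uniq F i := by
    intro j
    by_contra hj
    push Not at hj
    exact hcon j ⟨fun τ l => hj _ rfl, fun l => hj _ rfl⟩
  choose i₀ hi1 hi2 using hbad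
  have hbad2 : ∀ j : Fin 4, ∃ x ∈ F, ∃ y ∈ F, coS x = i₀ j ∧ coS y = i₀ j ∧ x ≠ y := by
    intro j
    have := hi2 j
    unfold Uniq at this
    push Not at this
    exact this
  choose x hx y hy hxc hyc hxy using hbad2
  choose rep hrep1 hrep2 using hR
  let other : Fin 4 → SLet Λ St N pad := fun j => if rep (i₀ j) = x j then y j else x j
  have hoth1 : ∀ j, other j ∈ F := by
    intro j
    simp only [other]
    split_ifs
    · exact hy j
    · exact hx j
  have hoth2 : ∀ j, coS (other j) = i₀ j := by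
    intro j
    simp only [other]
    split_ifs
    · exact hyc j
    · exact hxc j
  have hoth3 : ∀ j, other j ≠ rep (i₀ j) := by
    intro j
    simp only [other]
    split_ifs with h
    · rw [h]
      exact (hxy j).symm
    · exact fun e => h e.symm
  have hi0 : Function.Injective i₀ := by
    intro j j' h
    have := hi1 j
    rw [h, hi1 j'] at this
    exact (Option.some.inj this).symm
  have : (univ : Finset (SCo N pad ⊕ Fin 4)).card ≤ F.card := by
    apply Finset.card_le_card_of_injOn (fun s => Sum.elim rep other s)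
    · rintro (i | j) _
      · exact hrep1 i
      · exact hoth1 j
    · rintro (i | j) _ (i' | j') _ h
      · simp only [Sum.elim_inl] at h
        have := congrArg coS h
        rw [hrep2, hrep2] at this
        rw [this]
      · simp only [Sum.elim_inl, Sum.elim_inr] at h
        have := congrArg coS h
        rw [hrep2, hoth2] at this
        subst this
        exact absurd h.symm (hoth3 j')
      · simp only [Sum.elim_inl, Sum.elim_inr] at h
        have := congrArg coS h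
        rw [hrep2, hoth2] at this
        subst this
        exact absurd h (hoth3 j)
      · simp only [Sum.elim_inr] at h
        have := congrArg coS h
        rw [hoth2, hoth2] at this
        rw [hi0 this]
  rw [card_univ, Fintype.card_sum, Fintype.card_fin] at this
  omega

lemma rho_fl : ∀ τ : Fin 3, (if τ = 0 then (1 : Fin 3) else 0) ≠ τ := by decide

lemma rho_cq : ∀ τ : Fin 3, (if τ = 2 then (1 : Fin 3) else 2) ≠ τ := by decide

/-- Under `SS` the letters of a fully single copy on the track are not flagged. -/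
lemma flag_false {F : Finset (SLet Λ St N pad)} {τ : Fin 3} {j : Fin 4}
    (hS : SS (grS (N := N) (bL := bL) (bS := bS)) (covS enc encS Loc isOK) τ F) (hF : FS F j)
    {l : Fin (N + 1)} {a : Λ} {f : Bool} (h : SLet.fld τ j l a f ∈ F) : f = false := by
  have h1 : grS (SCl.fl τ j l : SCl N bL bS) =
      Sum.inl (if τ = 0 then (1 : Fin 3) else 0) := by
    simp only [grS]
    split_ifs <;> rfl
  obtain ⟨x, hx, hc⟩ := hS _ (rho_fl τ) (SCl.fl τ j l) h1
  cases x with
  | fld τ' j' l' a' f' =>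
    obtain ⟨rfl, rfl, rfl, rfl⟩ := hc
    have := hF.1 _ _ _ h _ hx rfl rfl
    simp only [SLet.fld.injEq, true_and] at this
    exact this.2
  | wit j' l' c u u' m => exact hc.elim
  | pd i => exact hc.elim

/-- Two fully single copies read the same string on a track under `SS`. -/
lemma agreement (henc : Function.Injective enc) {F : Finset (SLet Λ St N pad)} {τ : Fin 3}
    {j j' : Fin 4} (hS : SS (grS (N := N) (bL := bL) (bS := bS)) (covS enc encS Loc isOK) τ F)
    (hF : FS F j) (hF' : FS F j') {v v' : Fin (N + 1) → Λ} (h : Reads F τ j v)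
    (h' : Reads F τ j' v') : v = v' := by
  funext l
  obtain ⟨f, hf⟩ := h l
  obtain ⟨f', hf'⟩ := h' l
  have hf0 := flag_false hS hF hf
  have hf0' := flag_false hS hF' hf'
  subst hf0
  subst hf0'
  apply henc
  funext bit
  have h1 : grS (SCl.cq τ j j' l bit (enc (v' l) bit) : SCl N bL bS) =
      Sum.inl (if τ = 2 then (1 : Fin 3) else 2) := by
    simp only [grS]
    split_ifs <;> rfl
  obtain ⟨x, hx, hc⟩ := hS _ (rho_cq τ) _ h1
  cases x with
  | fld τ₁ j₁ l₁ a₁ f₁ =>
    obtain ⟨rfl, rfl, ⟨rfl, hc⟩ | ⟨rfl, hc⟩⟩ := hc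
    · have := hF.1 _ _ _ hf _ hx rfl rfl
      simp only [SLet.fld.injEq, true_and] at this
      obtain ⟨rfl, rfl⟩ := this
      rcases hc with hc | hc
      · simp at hc
      · exact hc
    · have := hF'.1 _ _ _ hf' _ hx rfl rfl
      simp only [SLet.fld.injEq, true_and] at this
      obtain ⟨rfl, rfl⟩ := this
      rcases hc with hc | hc
      · simp at hc
      · exact absurd rfl hc
  | wit j' l' c u u' m => exact hc.elim
  | pd i => exact hc.elim

/-- The run on a fully single copy when all groups are closed. -/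
lemma run_of_closed (henc : Function.Injective enc) (hencS : Function.Injective encS)
    {F : Finset (SLet Λ St N pad)} {j : Fin 4} (hR : RegL coS F) (hF : FS F j)
    (hC : ∀ ρ, Cv (grS (N := N) (bL := bL) (bS := bS)) (covS enc encS Loc isOK) (Sum.inl ρ) F)
    {a : Fin 3 → Fin (N + 1) → Λ} (ha : ∀ τ, Reads F τ j (a τ)) :
    ∃ u, RunS Loc a u := by
  classical
  have hw := fun l => exists_wit hR j l
  choose c U U' m hwit using hw
  have huq : ∀ l, ∀ c' v v' m', SLet.wit j l c' v v' m' ∈ F →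
      c' = c l ∧ v = U l ∧ v' = U' l ∧ m' = m l := by
    intro l c' v v' m' h
    have := hF.2 l _ h _ (hwit l) rfl rfl
    simpa only [SLet.wit.injEq, true_and] using this
  -- modes
  have hm : ∀ l, m l = 2 := by
    intro l
    obtain ⟨x, hx, hc1⟩ := hC 1 (SCl.dc j l) rfl
    obtain ⟨y, hy, hc2⟩ := hC 0 (SCl.ec j l) rfl
    cases x with
    | fld _ _ _ _ _ => exact hc1.elim
    | pd _ => exact hc1.elim
    | wit j₁ l₁ c₁ u₁ u₁' m₁ =>
      cases y with
      | fld _ _ _ _ _ => exact hc2.elim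
      | pd _ => exact hc2.elim
      | wit j₂ l₂ c₂ u₂ u₂' m₂ =>
        obtain ⟨rfl, rfl, e1⟩ := hc1
        obtain ⟨rfl, rfl, e2⟩ := hc2
        obtain ⟨-, -, -, e3⟩ := huq _ _ _ _ _ hx
        obtain ⟨-, -, -, e4⟩ := huq _ _ _ _ _ hy
        rw [e3] at e1
        rw [e4] at e2
        have key : ∀ q : Fin 3, q ≠ 1 → q ≠ 0 → q = 2 := by decide
        exact key _ e1 e2
  -- symbols
  have hsym : ∀ l τ, c l τ = a τ l := by
    intro l τ
    apply henc
    funext bit
    have h1 : grS (SCl.rl τ j l bit (enc (a τ l) bit) : SCl N bL bS) = Sum.inl 2 := rfl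
    obtain ⟨x, hx, hc⟩ := hC 2 _ h1
    cases x with
    | fld τ₁ j₁ l₁ a₁ f₁ =>
      obtain ⟨rfl, rfl, rfl, hc⟩ := hc
      obtain ⟨f, hf⟩ := ha τ₁ l₁
      have := hF.1 _ _ _ hf _ hx rfl rfl
      simp only [SLet.fld.injEq, true_and] at this
      rw [this.1] at hc
      exact absurd rfl hc
    | wit j₁ l₁ c₁ u₁ u₁' m₁ =>
      obtain ⟨rfl, rfl, hc⟩ := hc
      obtain ⟨rfl, -, -, rfl⟩ := huq _ _ _ _ _ hx
      rcases hc with hc | hc
      · exact absurd (hm _) hc
      · exact hc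
    | pd i => exact hc.elim
  -- local validity
  have hloc : ∀ l, Loc l (a 0 l) (a 1 l) (a 2 l) (U l) (U' l) := by
    intro l
    obtain ⟨x, hx, hc⟩ := hC 2 (SCl.vl j l) rfl
    cases x with
    | fld _ _ _ _ _ => exact hc.elim
    | pd _ => exact hc.elim
    | wit j₁ l₁ c₁ u₁ u₁' m₁ =>
      obtain ⟨rfl, rfl, hc⟩ := hc
      obtain ⟨rfl, rfl, rfl, rfl⟩ := huq _ _ _ _ _ hx
      rcases hc with hc | hc
      · exact absurd (hm _) hc
      · rw [hsym, hsym, hsym] at hc
        exact hc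
  -- adjacency
  have hadj : ∀ l : Fin N, U' l.castSucc = U l.succ := by
    intro l
    apply hencS
    funext bit
    have h1 : grS (SCl.ad j l bit (encS (U l.succ) bit) : SCl N bL bS) = Sum.inl 2 := rfl
    obtain ⟨x, hx, hc⟩ := hC 2 _ h1
    cases x with
    | fld _ _ _ _ _ => exact hc.elim
    | pd _ => exact hc.elim
    | wit j₁ l₁ c₁ u₁ u₁' m₁ =>
      obtain ⟨rfl, ⟨rfl, hc⟩ | ⟨rfl, hc⟩⟩ := hc
      · obtain ⟨rfl, rfl, rfl, rfl⟩ := huq _ _ _ _ _ hx
        rcases hc with hc | hc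
        · exact absurd (hm _) hc
        · exact hc
      · obtain ⟨rfl, rfl, rfl, rfl⟩ := huq _ _ _ _ _ hx
        rcases hc with hc | hc
        · exact absurd (hm _) hc
        · exact absurd rfl hc
  refine ⟨Fin.lastCases (U' (Fin.last N)) U, fun l => ?_⟩
  have e1 : (Fin.lastCases (U' (Fin.last N)) U : Fin (N + 2) → St) l.castSucc = U l := by
    simp
  have e2 : (Fin.lastCases (U' (Fin.last N)) U : Fin (N + 2) → St) l.succ = U' l := by
    induction l using Fin.lastCases with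
    | last =>
      simp
    | cast l =>
      rw [Fin.succ_castSucc]
      simp only [Fin.lastCases_castSucc]
      exact (hadj l).symm
  rw [e1, e2]
  exact hloc l

variable (enc encS Loc isOK)

/-- The track predicate of a model `M`. -/
def KS (M : Fin 3 → (Fin (N + 1) → Λ) → Prop) (τ : Fin 3) (F : Finset (SLet Λ St N pad)) : Prop :=
  SS (grS (N := N) (bL := bL) (bS := bS)) (covS enc encS Loc isOK) τ F ∧
    ∃ j v, FS F j ∧ Reads F τ j v ∧ M τ v

/-- The predicate of a good head on track 0. -/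
def T1S (F : Finset (SLet Λ St N pad)) : Prop :=
  SS (grS (N := N) (bL := bL) (bS := bS)) (covS enc encS Loc isOK) 0 F ∧
    ∃ j v, FS F j ∧ Reads F 0 j v ∧ isOK 0 (v 0)

variable {enc encS Loc isOK}

lemma reads_zero {F : Finset (SLet Λ St N pad)} {τ : Fin 3} {j : Fin 4} {v : Fin (N + 1) → Λ}
    (hZ : Zc (grS (N := N) (bL := bL) (bS := bS)) (covS enc encS Loc isOK) τ F) (hF : FS F j)
    (h : Reads F τ j v) : isOK τ (v 0) := by
  obtain ⟨x, hx, hc⟩ := hZ (SCl.zc τ j) rfl
  cases x with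
  | fld τ₁ j₁ l₁ a₁ f₁ =>
    obtain ⟨rfl, rfl, rfl, hc⟩ := hc
    obtain ⟨f, hf⟩ := h 0
    have := hF.1 _ _ _ hf _ hx rfl rfl
    simp only [SLet.fld.injEq, true_and] at this
    rw [this.1]
    exact hc
  | wit _ _ _ _ _ _ => exact hc.elim
  | pd _ => exact hc.elim

/-- A semantic model of the string system gives a model for the Duplicator. -/
theorem model_of_sem (henc : Function.Injective enc) (hencS : Function.Injective encS)
    {M : Fin 3 → (Fin (N + 1) → Λ) → Prop}
    (hseed : ∀ τ v, τ ≠ 0 → isOK τ (v 0) → M τ v)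
    (hrule : ∀ a u, RunS Loc a u → ∀ τ, (∀ τ', τ' ≠ τ → M τ' (a τ')) → M τ (a τ))
    (htrap0 : ∀ v, isOK 0 (v 0) → ¬ M 0 v)
    (htrap : ∀ a u, RunS Loc a u → isOK 0 (a 0 0) → ¬ M 1 (a 1) ∧ ¬ M 2 (a 2)) :
    Model (grS (N := N) (bL := bL) (bS := bS)) (coS (Λ := Λ) (St := St) (pad := pad))
      (covS enc encS Loc isOK) (KS enc encS Loc isOK M) (T1S enc encS Loc isOK)
      (Fintype.card (SCo N pad)) := by
  have up_fs : ∀ {F F' : Finset (SLet Λ St N pad)}, F ⊆ F' → RegL coS F →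
      F'.card ≤ Fintype.card (SCo N pad) + 3 → ∃ j, FS F' j ∧ FS F j := by
    intro F F' hsub hR hc
    obtain ⟨j, hj⟩ := exists_FS (hR.mono coS hsub) hc
    exact ⟨j, hj, hj.mono hsub⟩
  have down : ∀ {F F' : Finset (SLet Λ St N pad)} {τ : Fin 3} (P : (Fin (N + 1) → Λ) → Prop),
      F ⊆ F' → RegL coS F → F'.card ≤ Fintype.card (SCo N pad) + 3 →
      SS (grS (N := N) (bL := bL) (bS := bS)) (covS enc encS Loc isOK) τ F →
      ((∃ j v, FS F j ∧ Reads F τ j v ∧ P v) ↔ ∃ j v, FS F' j ∧ Reads F' τ j v ∧ P v) := by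
    intro F F' τ P hsub hR hc hS
    constructor
    · rintro ⟨j, v, h1, h2, h3⟩
      obtain ⟨j', h4, h5⟩ := up_fs hsub hR hc
      obtain ⟨v', h6⟩ := exists_reads hR τ j'
      have := agreement henc hS h1 h5 h2 h6
      subst this
      exact ⟨j', v, h4, h6.mono hsub, h3⟩
    · rintro ⟨j, v, h1, h2, h3⟩
      have h4 := h1.mono hsub
      obtain ⟨v', h5⟩ := exists_reads hR τ j
      have := reads_unique h1 (h5.mono hsub) h2
      subst this
      exact ⟨j, v', h4, h5, h3⟩
  refine ⟨?_, ?_, ?_, ?_, ?_, ?_⟩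
  · intro τ F F' hsub hR hc hS
    unfold KS
    rw [← down (M τ) hsub hR hc hS]
    exact ⟨fun h => ⟨hS.mono _ _ hsub, h.2⟩, fun h => ⟨hS, h.2⟩⟩
  · intro F F' hsub hR hc hS
    unfold T1S
    rw [← down (fun v => isOK 0 (v 0)) hsub hR hc hS]
    exact ⟨fun h => ⟨hS.mono _ _ hsub, h.2⟩, fun h => ⟨hS, h.2⟩⟩
  · intro F hR hc hS hZ
    obtain ⟨j, hj⟩ := exists_FS hR hc
    obtain ⟨v, hv⟩ := exists_reads hR 0 j
    exact ⟨hS, j, v, hj, hv, reads_zero hZ hj hv⟩
  · intro τ F hτ hR hc hS hZ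
    obtain ⟨j, hj⟩ := exists_FS hR hc
    obtain ⟨v, hv⟩ := exists_reads hR τ j
    exact ⟨hS, j, v, hj, hv, hseed τ v hτ (reads_zero hZ hj hv)⟩
  · intro F hR hc hC
    obtain ⟨j, hj⟩ := exists_FS hR hc
    have hv := fun τ => exists_reads hR τ j
    choose a ha using hv
    obtain ⟨u, hu⟩ := run_of_closed henc hencS hR hj hC ha
    have hSS : ∀ τ, SS (grS (N := N) (bL := bL) (bS := bS)) (covS enc encS Loc isOK) τ F :=
      fun τ ρ _ => hC ρ
    have hMof : ∀ τ, KS enc encS Loc isOK M τ F → M τ (a τ) := by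
      rintro τ ⟨hS, j', v, h1, h2, h3⟩
      have := agreement henc hS h1 hj h2 (ha τ)
      rwa [← this]
    have hKof : ∀ τ, M τ (a τ) → KS enc encS Loc isOK M τ F :=
      fun τ h => ⟨hSS τ, j, a τ, hj, ha τ, h⟩
    have hne : ∀ τ₁ τ₂ τ₃ : Fin 3, τ₁ ≠ τ₂ → τ₁ ≠ τ₃ → τ₂ ≠ τ₃ → ∀ τ', τ' ≠ τ₁ → τ' = τ₂ ∨ τ' = τ₃ := by
      decide
    have hthree : ∀ τ₁ τ₂ τ₃ : Fin 3, τ₁ ≠ τ₂ → τ₁ ≠ τ₃ → τ₂ ≠ τ₃ →
        KS enc encS Loc isOK M τ₂ F → KS enc encS Loc isOK M τ₃ F →
        KS enc encS Loc isOK M τ₁ F := by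
      intro τ₁ τ₂ τ₃ h12 h13 h23 h2 h3
      refine hKof τ₁ (hrule a u hu τ₁ fun τ' hτ' => ?_)
      rcases hne τ₁ τ₂ τ₃ h12 h13 h23 τ' hτ' with rfl | rfl
      · exact hMof _ h2
      · exact hMof _ h3
    refine ⟨hthree 0 1 2 (by decide) (by decide) (by decide), hthree 2 0 1 (by decide) (by decide)
      (by decide), hthree 1 0 2 (by decide) (by decide) (by decide), ?_⟩
    rintro ⟨hS, j', v, h1, h2, h3⟩
    have e := agreement henc hS h1 hj h2 (ha 0)
    rw [e] at h3
    obtain ⟨t1, t2⟩ := htrap a u hu h3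
    exact ⟨fun h => t1 (hMof 1 h), fun h => t2 (hMof 2 h)⟩
  · rintro F hR hc hS ⟨-, j, v, h1, h2, h3⟩ ⟨-, j', v', h4, h5, h6⟩
    have := agreement henc hS h1 h4 h2 h5
    subst this
    exact htrap0 v h3 h6

omit [NumE (Gr × SCo N pad)] [NumE (SCl N bL bS)] in
lemma card_SCo : Fintype.card (SCo N pad) = 16 * (N + 1) + pad := by
  rw [Fintype.card_congr SCo.equiv]
  simp only [Fintype.card_sum, Fintype.card_prod, Fintype.card_fin]
  ring

/-- The no case of the string system: a semantic model makes the graphs WL equivalent. -/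
theorem no_S (henc : Function.Injective enc) (hencS : Function.Injective encS)
    {M : Fin 3 → (Fin (N + 1) → Λ) → Prop}
    (hseed : ∀ τ v, τ ≠ 0 → isOK τ (v 0) → M τ v)
    (hrule : ∀ a u, RunS Loc a u → ∀ τ, (∀ τ', τ' ≠ τ → M τ' (a τ')) → M τ (a τ))
    (htrap0 : ∀ v, isOK 0 (v 0) → ¬ M 0 v)
    (htrap : ∀ a u, RunS Loc a u → isOK 0 (a 0 0) → ¬ M 1 (a 1) ∧ ¬ M 2 (a 2))
    {g : ℕ} [NumE (RV (SCo N pad) (SCl N bL bS) g ⊕ SLet Λ St N pad)]
    (hg : Fintype.card (SCo N pad) + 4 ≤ g) (a₀ : Λ) :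
    WLEquiv (Fintype.card (SCo N pad) + 2)
      (vtGraph (rb (I := SCo N pad) (g := g) (grS (N := N) (bL := bL) (bS := bS)))
        (frL grS coS (covS enc encS Loc isOK)) (fun _ => 0))
      (vtGraph (rb (I := SCo N pad) (g := g) (grS (N := N) (bL := bL) (bS := bS)))
        (frL grS coS (covS enc encS Loc isOK)) twistR) := by
  refine no_case_R _ _ _ (model_of_sem henc hencS hseed hrule htrap0 htrap) rfl ?_ hg
    (SCo.cf 0 0 0) (SCl.fl 0 0 0) (SLet.fld 0 0 0 a₀ false)
  rw [card_SCo]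
  omega

end

end Vale.Agent.Lib.P310F.R
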