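import Vale.Agent.Lib.P310F.R.DerR
import Vale.Agent.Lib.P310F.R.SDefs

set_option linter.unusedSectionVars false

namespace Vale.Agent.Lib.P310F.R

open Finset

section Charges

/-- The charge of a track: region `τ` for `τ = 1, 2`; regions 1 and 2 for `τ = 0`. -/
def Lt (τ : Fin 3) : Room → ZMod 2 :=
  fun r => if τ = 0 then (if r.1 = 0 then 0 else 1) else (if r.1 = τ then 1 else 0)

lemma Lt_cross : ∀ (τ : Fin 3) (G : Gr), Lt τ (grA G) + Lt τ (grB G) ≠ 0 →
    ∃ ρ, ρ ≠ τ ∧ G = Sum.inl ρ := by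
  decide

lemma Lt_sum : ∀ r : Room, Lt 0 r + Lt 1 r + Lt 2 r = 0 := by
  decide

lemma Lt_seed : ∀ (τ : Fin 3), τ ≠ 0 → ∀ r : Room,
    indR (τ, false) r + indR (τ, true) r = Lt τ r := by
  decide

lemma hub_cross : ∀ (τ : Fin 3) (G : Gr), indR (τ, false) (grA G) + indR (τ, false) (grB G) ≠ 0 →
    (∃ ρ, ρ ≠ τ ∧ G = Sum.inl ρ) ∨ G = Sum.inr τ := by
  decide

lemma partner_cross : ∀ (τ : Fin 3) (G : Gr),
    indR (τ, true) (grA G) + indR (τ, true) (grB G) ≠ 0 → G = Sum.inr τ := by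
  decide

lemma end_sum : ∀ r : Room, Lt 0 r + (indR (0, false) r + indR (0, true) r) = 1 := by
  decide

end Charges

section

variable {Λ St : Type} [Fintype Λ] [DecidableEq Λ] [Fintype St] [DecidableEq St]
variable {N pad bL bS g d : ℕ}
variable [NumE (Gr × SCo N pad)] [NumE (SCl N bL bS)]
  [NumE (RV (SCo N pad) (SCl N bL bS) g ⊕ SLet Λ St N pad)]
variable (enc : Λ → Fin bL → Bool) (encS : St → Fin bS → Bool)
  (Loc : Fin (N + 1) → Λ → Λ → Λ → St → St → Prop) (isOK : Fin 3 → Λ → Prop)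

/-- The word of letters of a triple of strings, a state sequence, flags and a mode. -/
def Tr (a : Fin 3 → Fin (N + 1) → Λ) (u : Fin (N + 2) → St) (f : Fin 3 → Bool) (m : Fin 3) :
    SCo N pad → SLet Λ St N pad
  | SCo.cf τ j l => SLet.fld τ j l (a τ l) (f τ)
  | SCo.cw j l => SLet.wit j l (fun τ => a τ l) (u l.castSucc) (u l.succ) m
  | SCo.cp i => SLet.pd i

/-- The set of letters of a word. -/
noncomputable def Fw (w : SCo N pad → SLet Λ St N pad) : Finset (SLet Λ St N pad) := univ.image w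

lemma mem_Fw (w : SCo N pad → SLet Λ St N pad) (i : SCo N pad) : w i ∈ Fw w :=
  mem_image_of_mem _ (mem_univ _)

lemma card_Fw (w : SCo N pad → SLet Λ St N pad) : (Fw w).card ≤ Fintype.card (SCo N pad) :=
  card_image_le

lemma regL_Fw {w : SCo N pad → SLet Λ St N pad} (hw : ∀ i, coS (w i) = i) : RegL coS (Fw w) :=
  fun i => ⟨w i, mem_Fw w i, hw i⟩

lemma coS_Tr (a : Fin 3 → Fin (N + 1) → Λ) (u : Fin (N + 2) → St) (f : Fin 3 → Bool) (m : Fin 3)
    (i : SCo N pad) : coS (Tr a u f m i) = i := by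
  cases i <;> rfl

variable {enc encS Loc isOK}

/-- Shorthands for the system. -/
abbrev DerS (g d : ℕ) [NumE (RV (SCo N pad) (SCl N bL bS) g ⊕ SLet Λ St N pad)]
    (enc : Λ → Fin bL → Bool) (encS : St → Fin bS → Bool)
    (Loc : Fin (N + 1) → Λ → Λ → Λ → St → St → Prop) (isOK : Fin 3 → Λ → Prop)
    (ι : Room → ZMod 2) (F : Finset (SLet Λ St N pad)) : Prop :=
  Der (grS (N := N) (bL := bL) (bS := bS)) coS (covS enc encS Loc isOK) g d ι F

/-- Change of a word letter by letter. -/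
theorem der_mix (hd : Fintype.card (SCo N pad) + 1 ≤ d) (hd2 : 2 ≤ d) {ι : Room → ZMod 2}
    {w w' : SCo N pad → SLet Λ St N pad} (hw : ∀ i, coS (w i) = i) (hw' : ∀ i, coS (w' i) = i)
    (hcov : ∀ m : SCo N pad → SLet Λ St N pad, (∀ i, m i = w i ∨ m i = w' i) →
      Covers (grS (N := N) (bL := bL) (bS := bS)) coS (covS enc encS Loc isOK) g ι (Fw m))
    (h : DerS g d enc encS Loc isOK ι (Fw w)) : DerS g d enc encS Loc isOK ι (Fw w') := by
  classical
  have key : ∀ s : Finset (SCo N pad),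
      DerS g d enc encS Loc isOK ι (Fw fun i => if i ∈ s then w' i else w i) := by
    intro s
    induction s using Finset.induction_on with
    | empty =>
      have e : (fun i => if i ∈ (∅ : Finset (SCo N pad)) then w' i else w i) = w := by
        funext i
        simp
      rw [e]
      exact h
    | insert i s hi ih =>
      set m := fun j => if j ∈ insert i s then w' j else w j with hm
      set m₀ := fun j => if j ∈ s then w' j else w j with hm₀
      have hsub : Fw m₀ ⊆ insert (w i) (Fw m) := by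
        intro l hl
        obtain ⟨j, -, rfl⟩ := mem_image.mp hl
        by_cases hj : j = i
        · subst hj
          simp only [hm₀, if_neg hi]
          exact mem_insert_self _ _
        · apply mem_insert_of_mem
          have : m₀ j = m j := by
            simp only [hm₀, hm, mem_insert, hj, false_or]
          rw [this]
          exact mem_Fw m j
      refine (ih.up hsub).down hd2 ?_ ?_
      · refine (card_insert_le _ _).trans ?_
        have := card_Fw m
        omega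
      · refine hcov m fun j => ?_
        simp only [hm]
        split_ifs
        · exact Or.inr rfl
        · exact Or.inl rfl
  have := key univ
  simpa using this

/-- Coverage for a track from the closure of the other groups. -/
lemma covers_Lt {τ : Fin 3} {F : Finset (SLet Λ St N pad)} (hR : RegL coS F)
    (hS : SS (grS (N := N) (bL := bL) (bS := bS)) (covS enc encS Loc isOK) τ F) :
    Covers (grS (N := N) (bL := bL) (bS := bS)) coS (covS enc encS Loc isOK) g (Lt τ) F := by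
  refine covers_of hR fun G hG => ?_
  obtain ⟨ρ, h1, rfl⟩ := Lt_cross τ G hG
  exact hS ρ h1

lemma cover_word {m : SCo N pad → SLet Λ St N pad} {κ : SCl N bL bS} (i : SCo N pad)
    (h : covS enc encS Loc isOK κ (m i)) : ∃ l ∈ Fw m, covS enc encS Loc isOK κ l :=
  ⟨m i, mem_Fw m i, h⟩

/-- A clause of equality with the same symbol in both copies. -/
lemma cq_same {m : SCo N pad → SLet Λ St N pad} {τ : Fin 3} {l : Fin (N + 1)} {A : Λ}
    (j j' : Fin 4) (bit : Fin bL) (x : Bool)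
    (h : ∀ j, ∃ f, m (SCo.cf τ j l) = SLet.fld τ j l A f) :
    ∃ l' ∈ Fw m, covS enc encS Loc isOK (SCl.cq τ j j' l bit x) l' := by
  by_cases hx : enc A bit = x
  · obtain ⟨f, hf⟩ := h j
    refine cover_word (SCo.cf τ j l) ?_
    rw [hf]
    exact ⟨rfl, rfl, Or.inl ⟨rfl, Or.inr hx⟩⟩
  · obtain ⟨f, hf⟩ := h j'
    refine cover_word (SCo.cf τ j' l) ?_
    rw [hf]
    exact ⟨rfl, rfl, Or.inr ⟨rfl, Or.inr hx⟩⟩

lemma cq_flag {m : SCo N pad → SLet Λ St N pad} {τ : Fin 3} {l : Fin (N + 1)}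
    (j j' : Fin 4) (bit : Fin bL) (x : Bool)
    (h : ∃ A, m (SCo.cf τ j l) = SLet.fld τ j l A true) :
    ∃ l' ∈ Fw m, covS enc encS Loc isOK (SCl.cq τ j j' l bit x) l' := by
  obtain ⟨A, hf⟩ := h
  refine cover_word (SCo.cf τ j l) ?_
  rw [hf]
  exact ⟨rfl, rfl, Or.inl ⟨rfl, Or.inl rfl⟩⟩

lemma fl_false {m : SCo N pad → SLet Λ St N pad} {τ : Fin 3} {j : Fin 4} {l : Fin (N + 1)}
    (h : ∃ A, m (SCo.cf τ j l) = SLet.fld τ j l A false) :
    ∃ l' ∈ Fw m, covS enc encS Loc isOK (SCl.fl τ j l) l' := by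
  obtain ⟨A, hf⟩ := h
  refine cover_word (SCo.cf τ j l) ?_
  rw [hf]
  exact ⟨rfl, rfl, rfl, rfl⟩

/-- Clauses of the automaton in a mode other than 2. -/
lemma rl_mode {m : SCo N pad → SLet Λ St N pad} {τ : Fin 3} {j : Fin 4} {l : Fin (N + 1)}
    (bit : Fin bL) (x : Bool) {c : Fin 3 → Λ} {u u' : St} {md : Fin 3} (hmd : md ≠ 2)
    (h : m (SCo.cw j l) = SLet.wit j l c u u' md) :
    ∃ l' ∈ Fw m, covS enc encS Loc isOK (SCl.rl τ j l bit x) l' := by
  refine cover_word (SCo.cw j l) ?_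
  rw [h]
  exact ⟨rfl, rfl, Or.inl hmd⟩

lemma vl_mode {m : SCo N pad → SLet Λ St N pad} {j : Fin 4} {l : Fin (N + 1)}
    {c : Fin 3 → Λ} {u u' : St} {md : Fin 3} (hmd : md ≠ 2 ∨ Loc l (c 0) (c 1) (c 2) u u')
    (h : m (SCo.cw j l) = SLet.wit j l c u u' md) :
    ∃ l' ∈ Fw m, covS enc encS Loc isOK (SCl.vl j l) l' := by
  refine cover_word (SCo.cw j l) ?_
  rw [h]
  exact ⟨rfl, rfl, hmd⟩

lemma ad_mode {m : SCo N pad → SLet Λ St N pad} {j : Fin 4} {l : Fin N}
    (bit : Fin bS) (x : Bool) {c : Fin 3 → Λ} {u u' : St} {md : Fin 3} (hmd : md ≠ 2)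
    (h : m (SCo.cw j l.castSucc) = SLet.wit j l.castSucc c u u' md) :
    ∃ l' ∈ Fw m, covS enc encS Loc isOK (SCl.ad j l bit x) l' := by
  refine cover_word (SCo.cw j l.castSucc) ?_
  rw [h]
  exact ⟨rfl, Or.inl ⟨rfl, Or.inl hmd⟩⟩

/-- The clauses of the automaton when all letters come from one run. -/
lemma rl_same {m : SCo N pad → SLet Λ St N pad} {τ : Fin 3} {j : Fin 4} {l : Fin (N + 1)}
    (bit : Fin bL) (x : Bool) {A : Λ} {f : Bool} {c : Fin 3 → Λ} {u u' : St} {md : Fin 3}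
    (hc : c τ = A) (h1 : m (SCo.cf τ j l) = SLet.fld τ j l A f)
    (h2 : m (SCo.cw j l) = SLet.wit j l c u u' md) :
    ∃ l' ∈ Fw m, covS enc encS Loc isOK (SCl.rl τ j l bit x) l' := by
  by_cases hx : enc A bit = x
  · refine cover_word (SCo.cw j l) ?_
    rw [h2]
    refine ⟨rfl, rfl, Or.inr ?_⟩
    rw [hc]
    exact hx
  · refine cover_word (SCo.cf τ j l) ?_
    rw [h1]
    exact ⟨rfl, rfl, rfl, hx⟩

lemma ad_same {m : SCo N pad → SLet Λ St N pad} {j : Fin 4} {l : Fin N}
    (bit : Fin bS) (x : Bool) {c c' : Fin 3 → Λ} {u₀ u₁ u₂ : St} {md md' : Fin 3}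
    (h1 : m (SCo.cw j l.castSucc) = SLet.wit j l.castSucc c u₀ u₁ md)
    (h2 : m (SCo.cw j l.succ) = SLet.wit j l.succ c' u₁ u₂ md') :
    ∃ l' ∈ Fw m, covS enc encS Loc isOK (SCl.ad j l bit x) l' := by
  by_cases hx : encS u₁ bit = x
  · refine cover_word (SCo.cw j l.castSucc) ?_
    rw [h1]
    exact ⟨rfl, Or.inl ⟨rfl, Or.inr hx⟩⟩
  · refine cover_word (SCo.cw j l.succ) ?_
    rw [h2]
    exact ⟨rfl, Or.inr ⟨rfl, Or.inr hx⟩⟩

lemma dc_mode {m : SCo N pad → SLet Λ St N pad} {j : Fin 4} {l : Fin (N + 1)}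
    {c : Fin 3 → Λ} {u u' : St} {md : Fin 3} (hmd : md ≠ 1)
    (h : m (SCo.cw j l) = SLet.wit j l c u u' md) :
    ∃ l' ∈ Fw m, covS enc encS Loc isOK (SCl.dc j l) l' := by
  refine cover_word (SCo.cw j l) ?_
  rw [h]
  exact ⟨rfl, rfl, hmd⟩

lemma ec_mode {m : SCo N pad → SLet Λ St N pad} {j : Fin 4} {l : Fin (N + 1)}
    {c : Fin 3 → Λ} {u u' : St} {md : Fin 3} (hmd : md ≠ 0)
    (h : m (SCo.cw j l) = SLet.wit j l c u u' md) :
    ∃ l' ∈ Fw m, covS enc encS Loc isOK (SCl.ec j l) l' := by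
  refine cover_word (SCo.cw j l) ?_
  rw [h]
  exact ⟨rfl, rfl, hmd⟩

/-- Words of one run, in modes `2` or `md` and flags `false` or `f`. -/
structure OneRun (m : SCo N pad → SLet Λ St N pad) (a : Fin 3 → Fin (N + 1) → Λ)
    (u : Fin (N + 2) → St) (f : Fin 3 → Bool) (md : Fin 3) : Prop where
  fld : ∀ τ j l, m (SCo.cf τ j l) = SLet.fld τ j l (a τ l) false ∨
    m (SCo.cf τ j l) = SLet.fld τ j l (a τ l) (f τ)
  wit : ∀ j l, m (SCo.cw j l) = SLet.wit j l (fun τ => a τ l) (u l.castSucc) (u l.succ) 2 ∨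
    m (SCo.cw j l) = SLet.wit j l (fun τ => a τ l) (u l.castSucc) (u l.succ) md

lemma OneRun.of_mix {m : SCo N pad → SLet Λ St N pad} {a : Fin 3 → Fin (N + 1) → Λ}
    {u : Fin (N + 2) → St} {f : Fin 3 → Bool} {md : Fin 3}
    (h : ∀ i, m i = Tr a u (fun _ => false) 2 i ∨ m i = Tr a u f md i) : OneRun m a u f md :=
  ⟨fun τ j l => h (SCo.cf τ j l), fun j l => h (SCo.cw j l)⟩

/-- In one run all clauses of group `inl 2` with track other than 2 are covered. -/
lemma OneRun.cv2 {m : SCo N pad → SLet Λ St N pad} {a : Fin 3 → Fin (N + 1) → Λ}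
    {u : Fin (N + 2) → St} {f : Fin 3 → Bool} {md : Fin 3} (h : OneRun m a u f md)
    (hrun : RunS Loc a u) :
    Cv (grS (N := N) (bL := bL) (bS := bS)) (covS enc encS Loc isOK) (Sum.inl 2) (Fw m) := by
  intro κ hκ
  have hfl : ∀ τ j l, ∃ f', m (SCo.cf τ j l) = SLet.fld τ j l (a τ l) f' := by
    intro τ j l
    rcases h.fld τ j l with e | e
    · exact ⟨_, e⟩
    · exact ⟨_, e⟩
  have hwt : ∀ j l, ∃ md', m (SCo.cw j l) =
      SLet.wit j l (fun τ => a τ l) (u l.castSucc) (u l.succ) md' := by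
    intro j l
    rcases h.wit j l with e | e
    · exact ⟨_, e⟩
    · exact ⟨_, e⟩
  cases κ with
  | cq τ j j' l bit x => exact cq_same j j' bit x (hfl τ · l)
  | fl τ j l =>
    simp only [grS] at hκ
    split_ifs at hκ <;> simp at hκ
  | rl τ j l bit x =>
    obtain ⟨f', e1⟩ := hfl τ j l
    obtain ⟨md', e2⟩ := hwt j l
    exact rl_same bit x rfl e1 e2
  | vl j l =>
    obtain ⟨md', e2⟩ := hwt j l
    exact vl_mode (Or.inr (hrun l)) e2
  | ad j l bit x =>
    obtain ⟨md1, e1⟩ := hwt j l.castSucc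
    obtain ⟨md2, e2⟩ := hwt j l.succ
    rw [Fin.succ_castSucc] at e1
    exact ad_same bit x e1 e2
  | dc j l => simp [grS] at hκ
  | ec j l => simp [grS] at hκ
  | zc τ j => simp [grS] at hκ

/-- Group `inl 1` in one run. -/
lemma OneRun.cv1 {m : SCo N pad → SLet Λ St N pad} {a : Fin 3 → Fin (N + 1) → Λ}
    {u : Fin (N + 2) → St} {f : Fin 3 → Bool} {md : Fin 3} (h : OneRun m a u f md)
    (hf : f 0 = false) (hmd : md ≠ 1) :
    Cv (grS (N := N) (bL := bL) (bS := bS)) (covS enc encS Loc isOK) (Sum.inl 1) (Fw m) := by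
  intro κ hκ
  have hfl : ∀ τ j l, ∃ f', m (SCo.cf τ j l) = SLet.fld τ j l (a τ l) f' := by
    intro τ j l
    rcases h.fld τ j l with e | e
    · exact ⟨_, e⟩
    · exact ⟨_, e⟩
  cases κ with
  | cq τ j j' l bit x => exact cq_same j j' bit x (hfl τ · l)
  | fl τ j l =>
    simp only [grS] at hκ
    have hτ : τ = 0 := by
      by_contra hne
      simp [hne] at hκ
    subst hτ
    refine fl_false ⟨a 0 l, ?_⟩
    rcases h.fld 0 j l with e | e
    · exact e
    · rw [hf] at e
      exact e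
  | rl τ j l bit x => simp [grS] at hκ
  | vl j l => simp [grS] at hκ
  | ad j l bit x => simp [grS] at hκ
  | dc j l =>
    rcases h.wit j l with e | e
    · exact dc_mode (by decide) e
    · exact dc_mode hmd e
  | ec j l => simp [grS] at hκ
  | zc τ j => simp [grS] at hκ

/-- Group `inl 0` in one run. -/
lemma OneRun.cv0 {m : SCo N pad → SLet Λ St N pad} {a : Fin 3 → Fin (N + 1) → Λ}
    {u : Fin (N + 2) → St} {f : Fin 3 → Bool} {md : Fin 3} (h : OneRun m a u f md)
    (hf1 : f 1 = false) (hf2 : f 2 = false) (hmd : md ≠ 0) :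
    Cv (grS (N := N) (bL := bL) (bS := bS)) (covS enc encS Loc isOK) (Sum.inl 0) (Fw m) := by
  intro κ hκ
  cases κ with
  | cq τ j j' l bit x =>
    simp only [grS] at hκ
    split_ifs at hκ <;> simp at hκ
  | fl τ j l =>
    simp only [grS] at hκ
    have hτ : τ ≠ 0 := by
      intro hne
      simp [hne] at hκ
    have hfτ : f τ = false := by
      fin_cases τ
      · exact absurd rfl hτ
      · exact hf1
      · exact hf2
    refine fl_false ⟨a τ l, ?_⟩
    rcases h.fld τ j l with e | e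
    · exact e
    · rw [hfτ] at e
      exact e
  | rl τ j l bit x => simp [grS] at hκ
  | vl j l => simp [grS] at hκ
  | ad j l bit x => simp [grS] at hκ
  | dc j l => simp [grS] at hκ
  | ec j l =>
    rcases h.wit j l with e | e
    · exact ec_mode (by decide) e
    · exact ec_mode hmd e
  | zc τ j => simp [grS] at hκ

/-- Two runs in a common mode with common flags. -/
structure TwoRun (m : SCo N pad → SLet Λ St N pad) (a a' : Fin 3 → Fin (N + 1) → Λ)
    (u u' : Fin (N + 2) → St) (f : Fin 3 → Bool) (md : Fin 3) : Prop where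
  fld : ∀ τ j l, m (SCo.cf τ j l) = SLet.fld τ j l (a τ l) (f τ) ∨
    m (SCo.cf τ j l) = SLet.fld τ j l (a' τ l) (f τ)
  wit : ∀ j l, (∃ c v v', m (SCo.cw j l) = SLet.wit j l c v v' md)

lemma TwoRun.of_mix {m : SCo N pad → SLet Λ St N pad} {a a' : Fin 3 → Fin (N + 1) → Λ}
    {u u' : Fin (N + 2) → St} {f : Fin 3 → Bool} {md : Fin 3}
    (h : ∀ i, m i = Tr a u f md i ∨ m i = Tr a' u' f md i) : TwoRun m a a' u u' f md := by
  refine ⟨fun τ j l => h (SCo.cf τ j l), fun j l => ?_⟩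
  rcases h (SCo.cw j l) with e | e
  · exact ⟨_, _, _, e⟩
  · exact ⟨_, _, _, e⟩

/-- Equality clauses of a common track in two runs. -/
lemma TwoRun.cq_common {m : SCo N pad → SLet Λ St N pad} {a a' : Fin 3 → Fin (N + 1) → Λ}
    {u u' : Fin (N + 2) → St} {f : Fin 3 → Bool} {md : Fin 3} (h : TwoRun m a a' u u' f md)
    {τ : Fin 3} (hτ : a τ = a' τ) (j j' : Fin 4) (l : Fin (N + 1)) (bit : Fin bL) (x : Bool) :
    ∃ l' ∈ Fw m, covS enc encS Loc isOK (SCl.cq τ j j' l bit x) l' := by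
  refine cq_same (A := a τ l) j j' bit x fun j => ⟨f τ, ?_⟩
  rcases h.fld τ j l with e | e
  · exact e
  · rw [hτ]
    exact e

lemma TwoRun.cq_flagged {m : SCo N pad → SLet Λ St N pad} {a a' : Fin 3 → Fin (N + 1) → Λ}
    {u u' : Fin (N + 2) → St} {f : Fin 3 → Bool} {md : Fin 3} (h : TwoRun m a a' u u' f md)
    {τ : Fin 3} (hf : f τ = true) (j j' : Fin 4) (l : Fin (N + 1)) (bit : Fin bL) (x : Bool) :
    ∃ l' ∈ Fw m, covS enc encS Loc isOK (SCl.cq τ j j' l bit x) l' := by
  rcases h.fld τ j l with e | e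
  · exact cq_flag j j' bit x ⟨a τ l, by rw [e, hf]⟩
  · exact cq_flag j j' bit x ⟨a' τ l, by rw [e, hf]⟩

lemma TwoRun.fl_unflagged {m : SCo N pad → SLet Λ St N pad} {a a' : Fin 3 → Fin (N + 1) → Λ}
    {u u' : Fin (N + 2) → St} {f : Fin 3 → Bool} {md : Fin 3} (h : TwoRun m a a' u u' f md)
    {τ : Fin 3} (hf : f τ = false) (j : Fin 4) (l : Fin (N + 1)) :
    ∃ l' ∈ Fw m, covS enc encS Loc isOK (SCl.fl τ j l) l' := by
  rcases h.fld τ j l with e | e
  · exact fl_false ⟨a τ l, by rw [e, hf]⟩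
  · exact fl_false ⟨a' τ l, by rw [e, hf]⟩

/-- Group `inl 2` in two runs in a mode other than 2: tracks 0 and 1 common or flagged. -/
lemma TwoRun.cv2 {m : SCo N pad → SLet Λ St N pad} {a a' : Fin 3 → Fin (N + 1) → Λ}
    {u u' : Fin (N + 2) → St} {f : Fin 3 → Bool} {md : Fin 3} (h : TwoRun m a a' u u' f md)
    (hmd : md ≠ 2) (h0 : a 0 = a' 0 ∨ f 0 = true) (h1 : a 1 = a' 1 ∨ f 1 = true)
    (h2 : a 2 = a' 2 ∨ f 2 = true) :
    Cv (grS (N := N) (bL := bL) (bS := bS)) (covS enc encS Loc isOK) (Sum.inl 2) (Fw m) := by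
  intro κ hκ
  cases κ with
  | cq τ j j' l bit x =>
    have hc : a τ = a' τ ∨ f τ = true := by
      fin_cases τ
      · exact h0
      · exact h1
      · exact h2
    rcases hc with hc | hc
    · exact h.cq_common hc j j' l bit x
    · exact h.cq_flagged hc j j' l bit x
  | fl τ j l =>
    simp only [grS] at hκ
    split_ifs at hκ <;> simp at hκ
  | rl τ j l bit x =>
    obtain ⟨c, v, v', e⟩ := h.wit j l
    exact rl_mode bit x hmd e
  | vl j l =>
    obtain ⟨c, v, v', e⟩ := h.wit j l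
    exact vl_mode (Or.inl hmd) e
  | ad j l bit x =>
    obtain ⟨c, v, v', e⟩ := h.wit j l.castSucc
    exact ad_mode bit x hmd e
  | dc j l => simp [grS] at hκ
  | ec j l => simp [grS] at hκ
  | zc τ j => simp [grS] at hκ

lemma TwoRun.cv1 {m : SCo N pad → SLet Λ St N pad} {a a' : Fin 3 → Fin (N + 1) → Λ}
    {u u' : Fin (N + 2) → St} {f : Fin 3 → Bool} {md : Fin 3} (h : TwoRun m a a' u u' f md)
    (hmd : md ≠ 1) (h0 : f 0 = false) (h2 : a 2 = a' 2 ∨ f 2 = true) (h1 : a 1 = a' 1 ∨ f 1 = true)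
    (h0' : a 0 = a' 0 ∨ f 0 = true) :
    Cv (grS (N := N) (bL := bL) (bS := bS)) (covS enc encS Loc isOK) (Sum.inl 1) (Fw m) := by
  intro κ hκ
  cases κ with
  | cq τ j j' l bit x =>
    have hc : a τ = a' τ ∨ f τ = true := by
      fin_cases τ
      · exact h0'
      · exact h1
      · exact h2
    rcases hc with hc | hc
    · exact h.cq_common hc j j' l bit x
    · exact h.cq_flagged hc j j' l bit x
  | fl τ j l =>
    simp only [grS] at hκ
    have hτ : τ = 0 := by
      by_contra hne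
      simp [hne] at hκ
    subst hτ
    exact h.fl_unflagged h0 j l
  | rl τ j l bit x => simp [grS] at hκ
  | vl j l => simp [grS] at hκ
  | ad j l bit x => simp [grS] at hκ
  | dc j l =>
    obtain ⟨c, v, v', e⟩ := h.wit j l
    exact dc_mode hmd e
  | ec j l => simp [grS] at hκ
  | zc τ j => simp [grS] at hκ

lemma TwoRun.cv0 {m : SCo N pad → SLet Λ St N pad} {a a' : Fin 3 → Fin (N + 1) → Λ}
    {u u' : Fin (N + 2) → St} {f : Fin 3 → Bool} {md : Fin 3} (h : TwoRun m a a' u u' f md)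
    (hmd : md ≠ 0) (h1 : f 1 = false) (h2 : f 2 = false) :
    Cv (grS (N := N) (bL := bL) (bS := bS)) (covS enc encS Loc isOK) (Sum.inl 0) (Fw m) := by
  intro κ hκ
  cases κ with
  | cq τ j j' l bit x =>
    simp only [grS] at hκ
    split_ifs at hκ <;> simp at hκ
  | fl τ j l =>
    simp only [grS] at hκ
    have hτ : τ ≠ 0 := by
      intro hne
      simp [hne] at hκ
    have hfτ : f τ = false := by
      fin_cases τ
      · exact absurd rfl hτ
      · exact h1
      · exact h2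
    exact h.fl_unflagged hfτ j l
  | rl τ j l bit x => simp [grS] at hκ
  | vl j l => simp [grS] at hκ
  | ad j l bit x => simp [grS] at hκ
  | dc j l => simp [grS] at hκ
  | ec j l =>
    obtain ⟨c, v, v', e⟩ := h.wit j l
    exact ec_mode hmd e
  | zc τ j => simp [grS] at hκ

/-- Flags and modes of the transport on each track. -/
def fT : Fin 3 → Fin 3 → Bool := ![![false, true, true], ![true, false, false], ![false, false, false]]

/-- The mode of the transport on each track. -/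
def mT : Fin 3 → Fin 3 := ![0, 1, 2]

/-- Stage one of the transport on track 0. -/
lemma stage1_0 {m : SCo N pad → SLet Λ St N pad} {a : Fin 3 → Fin (N + 1) → Λ}
    {u : Fin (N + 2) → St} (hrun : RunS Loc a u)
    (h : ∀ i, m i = Tr a u (fun _ => false) 2 i ∨ m i = Tr a u (fT 0) (mT 0) i) :
    SS (grS (N := N) (bL := bL) (bS := bS)) (covS enc encS Loc isOK) 0 (Fw m) := by
  have h' := OneRun.of_mix h
  refine (ss_zero _ _).mpr ⟨h'.cv1 rfl (by decide), h'.cv2 hrun⟩

/-- Stage one of the transport on track 1. -/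
lemma stage1_1 {m : SCo N pad → SLet Λ St N pad} {a : Fin 3 → Fin (N + 1) → Λ}
    {u : Fin (N + 2) → St} (hrun : RunS Loc a u)
    (h : ∀ i, m i = Tr a u (fun _ => false) 2 i ∨ m i = Tr a u (fT 1) (mT 1) i) :
    SS (grS (N := N) (bL := bL) (bS := bS)) (covS enc encS Loc isOK) 1 (Fw m) := by
  have h' := OneRun.of_mix h
  refine (ss_one _ _).mpr ⟨h'.cv0 rfl rfl (by decide), h'.cv2 hrun⟩

lemma stage2_0 {m : SCo N pad → SLet Λ St N pad} {a a' : Fin 3 → Fin (N + 1) → Λ}
    {u u' : Fin (N + 2) → St} (hτ : a 0 = a' 0)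
    (h : ∀ i, m i = Tr a u (fT 0) (mT 0) i ∨ m i = Tr a' u' (fT 0) (mT 0) i) :
    SS (grS (N := N) (bL := bL) (bS := bS)) (covS enc encS Loc isOK) 0 (Fw m) := by
  have h' := TwoRun.of_mix h
  refine (ss_zero _ _).mpr ⟨h'.cv1 (by decide) rfl (Or.inr rfl) (Or.inr rfl) (Or.inl hτ),
    h'.cv2 (by decide) (Or.inl hτ) (Or.inr rfl) (Or.inr rfl)⟩

lemma stage2_1 {m : SCo N pad → SLet Λ St N pad} {a a' : Fin 3 → Fin (N + 1) → Λ}
    {u u' : Fin (N + 2) → St} (hτ : a 1 = a' 1)
    (h : ∀ i, m i = Tr a u (fT 1) (mT 1) i ∨ m i = Tr a' u' (fT 1) (mT 1) i) :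
    SS (grS (N := N) (bL := bL) (bS := bS)) (covS enc encS Loc isOK) 1 (Fw m) := by
  have h' := TwoRun.of_mix h
  refine (ss_one _ _).mpr ⟨h'.cv0 (by decide) rfl rfl, ?_⟩
  intro κ hκ
  cases κ with
  | cq τ j j' l bit x =>
    simp only [grS] at hκ
    by_cases h2 : τ = 2
    · simp [h2] at hκ
    · fin_cases τ
      · exact h'.cq_flagged rfl j j' l bit x
      · exact h'.cq_common hτ j j' l bit x
      · exact absurd rfl h2
  | fl τ j l =>
    simp only [grS] at hκ
    split_ifs at hκ <;> simp at hκ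
  | rl τ j l bit x =>
    obtain ⟨c, v, v', e⟩ := h'.wit j l
    exact rl_mode bit x (by decide) e
  | vl j l =>
    obtain ⟨c, v, v', e⟩ := h'.wit j l
    exact vl_mode (Or.inl (by decide)) e
  | ad j l bit x =>
    obtain ⟨c, v, v', e⟩ := h'.wit j l.castSucc
    exact ad_mode bit x (by decide) e
  | dc j l => simp [grS] at hκ
  | ec j l => simp [grS] at hκ
  | zc τ j => simp [grS] at hκ

lemma stage2_2 {m : SCo N pad → SLet Λ St N pad} {a a' : Fin 3 → Fin (N + 1) → Λ}
    {u u' : Fin (N + 2) → St} (hτ : a 2 = a' 2)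
    (h : ∀ i, m i = Tr a u (fun _ => false) 2 i ∨ m i = Tr a' u' (fun _ => false) 2 i) :
    SS (grS (N := N) (bL := bL) (bS := bS)) (covS enc encS Loc isOK) 2 (Fw m) := by
  have h' := TwoRun.of_mix h
  refine (ss_two _ _).mpr ⟨h'.cv0 (by decide) rfl rfl, ?_⟩
  intro κ hκ
  cases κ with
  | cq τ j j' l bit x =>
    simp only [grS] at hκ
    have h2 : τ = 2 := by
      by_contra h2
      simp [h2] at hκ
    subst h2
    exact h'.cq_common hτ j j' l bit x
  | fl τ j l =>
    simp only [grS] at hκ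
    have hτ : τ = 0 := by
      by_contra hne
      simp [hne] at hκ
    subst hτ
    exact h'.fl_unflagged rfl j l
  | rl τ j l bit x => simp [grS] at hκ
  | vl j l => simp [grS] at hκ
  | ad j l bit x => simp [grS] at hκ
  | dc j l =>
    obtain ⟨c, v, v', e⟩ := h'.wit j l
    exact dc_mode (by decide) e
  | ec j l => simp [grS] at hκ
  | zc τ j => simp [grS] at hκ

lemma mix_word {m : SCo N pad → SLet Λ St N pad} {w w' : SCo N pad → SLet Λ St N pad}
    (hw : ∀ i, coS (w i) = i) (hw' : ∀ i, coS (w' i) = i) (h : ∀ i, m i = w i ∨ m i = w' i) :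
    RegL coS (Fw m) := by
  refine regL_Fw fun i => ?_
  rcases h i with e | e
  · rw [e, hw]
  · rw [e, hw']

/-- Transport of a derived track along two runs that agree on the track. -/
theorem transport (hd : Fintype.card (SCo N pad) + 1 ≤ d) (hd2 : 2 ≤ d) {τ : Fin 3}
    {a a' : Fin 3 → Fin (N + 1) → Λ} {u u' : Fin (N + 2) → St}
    (hrun : RunS Loc a u) (hrun' : RunS Loc a' u') (hτ : a τ = a' τ)
    (h : DerS g d enc encS Loc isOK (Lt τ) (Fw (Tr (pad := pad) a u (fun _ => false) 2))) :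
    DerS g d enc encS Loc isOK (Lt τ) (Fw (Tr (pad := pad) a' u' (fun _ => false) 2)) := by
  fin_cases τ
  · have s1 : DerS g d enc encS Loc isOK (Lt 0) (Fw (Tr (pad := pad) a u (fT 0) (mT 0))) := by
      refine der_mix hd hd2 (coS_Tr _ _ _ _) (coS_Tr _ _ _ _) (fun m hm => ?_) h
      exact covers_Lt (mix_word (coS_Tr _ _ _ _) (coS_Tr _ _ _ _) hm) (stage1_0 hrun hm)
    have s2 : DerS g d enc encS Loc isOK (Lt 0) (Fw (Tr (pad := pad) a' u' (fT 0) (mT 0))) := by
      refine der_mix hd hd2 (coS_Tr _ _ _ _) (coS_Tr _ _ _ _) (fun m hm => ?_) s1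
      exact covers_Lt (mix_word (coS_Tr _ _ _ _) (coS_Tr _ _ _ _) hm) (stage2_0 hτ hm)
    refine der_mix hd hd2 (coS_Tr _ _ _ _) (coS_Tr _ _ _ _) (fun m hm => ?_) s2
    have hm' : ∀ i, m i = Tr a' u' (fun _ => false) 2 i ∨ m i = Tr a' u' (fT 0) (mT 0) i :=
      fun i => (hm i).symm
    exact covers_Lt (mix_word (coS_Tr _ _ _ _) (coS_Tr _ _ _ _) hm') (stage1_0 hrun' hm')
  · have s1 : DerS g d enc encS Loc isOK (Lt 1) (Fw (Tr (pad := pad) a u (fT 1) (mT 1))) := by
      refine der_mix hd hd2 (coS_Tr _ _ _ _) (coS_Tr _ _ _ _) (fun m hm => ?_) h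
      exact covers_Lt (mix_word (coS_Tr _ _ _ _) (coS_Tr _ _ _ _) hm) (stage1_1 hrun hm)
    have s2 : DerS g d enc encS Loc isOK (Lt 1) (Fw (Tr (pad := pad) a' u' (fT 1) (mT 1))) := by
      refine der_mix hd hd2 (coS_Tr _ _ _ _) (coS_Tr _ _ _ _) (fun m hm => ?_) s1
      exact covers_Lt (mix_word (coS_Tr _ _ _ _) (coS_Tr _ _ _ _) hm) (stage2_1 hτ hm)
    refine der_mix hd hd2 (coS_Tr _ _ _ _) (coS_Tr _ _ _ _) (fun m hm => ?_) s2
    have hm' : ∀ i, m i = Tr a' u' (fun _ => false) 2 i ∨ m i = Tr a' u' (fT 1) (mT 1) i :=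
      fun i => (hm i).symm
    exact covers_Lt (mix_word (coS_Tr _ _ _ _) (coS_Tr _ _ _ _) hm') (stage1_1 hrun' hm')
  · refine der_mix hd hd2 (coS_Tr _ _ _ _) (coS_Tr _ _ _ _) (fun m hm => ?_) h
    exact covers_Lt (mix_word (coS_Tr _ _ _ _) (coS_Tr _ _ _ _) hm) (stage2_2 hτ hm)

/-- All groups are closed at the word of a run. -/
lemma closed_word {a : Fin 3 → Fin (N + 1) → Λ} {u : Fin (N + 2) → St} (hrun : RunS Loc a u)
    (ρ : Fin 3) : Cv (grS (N := N) (bL := bL) (bS := bS)) (covS enc encS Loc isOK) (Sum.inl ρ)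
      (Fw (Tr (pad := pad) a u (fun _ => false) 2)) := by
  have h' : OneRun (Tr (pad := pad) a u (fun _ => false) 2) a u (fun _ => false) 2 :=
    OneRun.of_mix fun _ => Or.inl rfl
  fin_cases ρ
  · exact h'.cv0 rfl rfl (by decide)
  · exact h'.cv1 rfl (by decide)
  · exact h'.cv2 hrun

/-- The group of zero clauses is closed if the head symbol of the track is good. -/
lemma zc_word {a : Fin 3 → Fin (N + 1) → Λ} {u : Fin (N + 2) → St} {τ : Fin 3}
    (hok : isOK τ (a τ 0)) :
    Zc (grS (N := N) (bL := bL) (bS := bS)) (covS enc encS Loc isOK) τ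
      (Fw (Tr (pad := pad) a u (fun _ => false) 2)) := by
  intro κ hκ
  cases κ with
  | cq τ' j j' l bit x =>
    simp only [grS] at hκ
    split_ifs at hκ <;> simp at hκ
  | fl τ' j l =>
    simp only [grS] at hκ
    split_ifs at hκ <;> simp at hκ
  | rl τ' j l bit x => simp [grS] at hκ
  | vl j l => simp [grS] at hκ
  | ad j l bit x => simp [grS] at hκ
  | dc j l => simp [grS] at hκ
  | ec j l => simp [grS] at hκ
  | zc τ' j =>
    simp only [grS, Sum.inr.injEq] at hκ
    subst hκ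
    refine cover_word (SCo.cf τ' j 0) ?_
    exact ⟨rfl, rfl, rfl, hok⟩

/-- The rooms of a region with good head symbol can be swept. -/
lemma der_region (hd : Fintype.card (SCo N pad) + 2 ≤ d) (hd2 : 2 ≤ d)
    (hℓ : 0 < g * Fintype.card (Gr × SCo N pad) + 4 * Fintype.card (SCl N bL bS))
    {a : Fin 3 → Fin (N + 1) → Λ} {u : Fin (N + 2) → St} {τ : Fin 3} (hrun : RunS Loc a u)
    (hok : isOK τ (a τ 0)) :
    DerS g d enc encS Loc isOK (fun r => indR (τ, false) r + indR (τ, true) r)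
      (Fw (Tr (pad := pad) a u (fun _ => false) 2)) := by
  have hR : RegL coS (Fw (Tr (pad := pad) a u (fun _ => false) 2)) := regL_Fw (coS_Tr _ _ _ _)
  have hc := card_Fw (Tr (pad := pad) a u (fun _ => false) 2)
  refine Der.add (der_room hd2 hℓ _ (by omega) (covers_of hR fun G hG => ?_))
    (der_room hd2 hℓ _ (by omega) (covers_of hR fun G hG => ?_))
  · rcases hub_cross τ G hG with ⟨ρ, -, rfl⟩ | rfl
    · exact closed_word hrun ρ
    · exact zc_word hok
  · rw [partner_cross τ G hG]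
    exact zc_word hok

/-- A derivable string gives the equation of its track at all runs containing it. -/
theorem der_of_deriv (hd : Fintype.card (SCo N pad) + 2 ≤ d) (hd2 : 2 ≤ d)
    (hℓ : 0 < g * Fintype.card (Gr × SCo N pad) + 4 * Fintype.card (SCl N bL bS))
    {τ : Fin 3} {v : Fin (N + 1) → Λ} (h : Deriv Loc isOK τ v) :
    ∀ (a : Fin 3 → Fin (N + 1) → Λ) (u : Fin (N + 2) → St), RunS Loc a u → a τ = v →
      DerS g d enc encS Loc isOK (Lt τ) (Fw (Tr (pad := pad) a u (fun _ => false) 2)) := by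
  induction h with
  | seed τ v hτ hok =>
    intro a u hrun hv
    subst hv
    exact (der_region hd hd2 hℓ hrun hok).congr (Lt_seed τ hτ)
  | rule a₀ u₀ τ hrun _ ih =>
    intro a u hrun' hv
    refine transport (by omega) hd2 hrun hrun' hv.symm ?_
    have e0 := ih 0
    have e1 := ih 1
    have e2 := ih 2
    fin_cases τ
    · have h1 := e1 (by decide) a₀ u₀ hrun rfl
      have h2 := e2 (by decide) a₀ u₀ hrun rfl
      refine (h1.add h2).congr fun r => ?_
      change _ = Lt 0 r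
      have := Lt_sum r
      revert this
      generalize Lt 0 r = A
      generalize Lt 1 r = C
      generalize Lt 2 r = E
      revert A C E
      decide
    · have h1 := e0 (by decide) a₀ u₀ hrun rfl
      have h2 := e2 (by decide) a₀ u₀ hrun rfl
      refine (h1.add h2).congr fun r => ?_
      change _ = Lt 1 r
      have := Lt_sum r
      revert this
      generalize Lt 0 r = A
      generalize Lt 1 r = C
      generalize Lt 2 r = E
      revert A C E
      decide
    · have h1 := e0 (by decide) a₀ u₀ hrun rfl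
      have h2 := e1 (by decide) a₀ u₀ hrun rfl
      refine (h1.add h2).congr fun r => ?_
      change _ = Lt 2 r
      have := Lt_sum r
      revert this
      generalize Lt 0 r = A
      generalize Lt 1 r = C
      generalize Lt 2 r = E
      revert A C E
      decide

/-- A derivation of a string with head symbol good on track 0 separates the two graphs. -/
theorem yes_S (hd : Fintype.card (SCo N pad) + 2 ≤ d) (hd2 : 2 ≤ d)
    (hℓ : 0 < g * Fintype.card (Gr × SCo N pad) + 4 * Fintype.card (SCl N bL bS))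
    {a : Fin 3 → Fin (N + 1) → Λ} {u : Fin (N + 2) → St} (hrun : RunS Loc a u)
    (hD : Deriv Loc isOK 0 (a 0)) (hok : isOK 0 (a 0 0)) :
    ¬ WLEquiv d (vtGraph (rb (I := SCo N pad) (g := g) (grS (N := N) (bL := bL) (bS := bS)))
        (frL grS coS (covS enc encS Loc isOK)) (fun _ => 0))
      (vtGraph (rb (I := SCo N pad) (g := g) (grS (N := N) (bL := bL) (bS := bS)))
        (frL grS coS (covS enc encS Loc isOK)) twistR) := by
  have h1 := der_of_deriv (enc := enc) (encS := encS) (pad := pad) (g := g) (d := d) hd hd2 hℓ hD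
    a u hrun rfl
  have h2 := der_region (enc := enc) (encS := encS) (pad := pad) (g := g) (d := d) hd hd2 hℓ hrun hok
  have h3 := (h1.add h2).congr end_sum
  have hc := card_Fw (Tr (pad := pad) a u (fun _ => false) 2)
  exact not_wl_of_der hℓ (Tr (pad := pad) a u (fun _ => false) 2 (SCo.cf 0 0 0)) (by omega) h3

end

end Vale.Agent.Lib.P310F.R
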