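import Vale.Agent.Lib.P310F.R.Sched

set_option linter.unusedSectionVars false

namespace Vale.Agent.Lib.P310F.R

open Finset

section Generic

variable {BV Pr : Type} [Fintype BV] [DecidableEq BV] [Fintype Pr] [DecidableEq Pr]
  [NumE (BV ⊕ Pr)]
variable {B : SimpleGraph BV} [DecidableRel B.Adj] {Fr : Pr → Finset (Sym2 BV)}

lemma parity_sum {t : BV → ZMod 2} {u : Node B Fr} {v : BV} (hu : u.1 = Sum.inl v)
    (hp : parityOK B Fr t u) : ∑ w ∈ B.neighborFinset v, ext u s(v, w) = t v := by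
  obtain ⟨c, σ⟩ := u
  simp only at hu
  subst hu
  have h1 : ∑ e, σ e = t v := hp
  rw [← sum_edges_inl B Fr v (ext ⟨Sum.inl v, σ⟩), ← h1]
  apply Finset.sum_congr rfl
  intro e _
  unfold ext
  rw [dif_pos e.2]

lemma mem_edges_inl {v w : BV} (h : B.Adj v w) : s(v, w) ∈ edgesOf B Fr (Sum.inl v) := by
  change s(v, w) ∈ (B.neighborFinset v).image fun u => s(v, u)
  exact mem_image.mpr ⟨w, (SimpleGraph.mem_neighborFinset B v w).mpr h, rfl⟩

end Generic

lemma sum_sum_symm_eq_zero {P : Type} [Fintype P] [DecidableEq P] (F : P → P → ZMod 2)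
    (hsymm : ∀ p q, F p q = F q p) (hdiag : ∀ p, F p p = 0) :
    ∑ p, ∑ q, F p q = 0 := by
  rw [← Finset.sum_product']
  refine Finset.sum_involution (fun a _ => (a.2, a.1)) ?_ ?_ ?_ ?_
  · intro a _
    rw [hsymm a.1 a.2]
    exact zmod2_add_self _
  · intro a _ hne heq
    have h1 : a.2 = a.1 := congrArg Prod.fst heq
    apply hne
    rw [h1]
    exact hdiag _
  · intro a _
    simp
  · intro a _
    rfl


end Vale.Agent.Lib.P310F.R
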